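import Mathlib

/-!
# Ekeland's variational principle (seat H94)

For a lower semicontinuous function `h`, bounded below, on a complete metric space, every
`η > 0` and every point `x0` there is a point `x` with `h x + η * dist x0 x ≤ h x0` and
`h x ≤ h y + η * dist x y` for all `y`.  `ekeland_on` is the same statement on a closed subset.

Proof: `ekS h η x = {y | h y + η * dist x y ≤ h x}` is closed, contains `x`, and the relation is
transitive.  Choose `u (n+1) ∈ ekS (u n)` with `h (u (n+1))` within `2^(-n)` of the infimum of `h`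
on `ekS (u n)`.  The sets `ekS (u n)` are nested, closed, bounded, with diameter tending to `0`;
their common point is the point sought.
-/

namespace Vale.Agent.H94

open Set Filter Topology

variable {X : Type*} [MetricSpace X]

/-- the points below `x` in the order of the variational principle -/
def ekS (h : X → ℝ) (η : ℝ) (x : X) : Set X := {y | h y + η * dist x y ≤ h x}

theorem ekS_self (h : X → ℝ) (η : ℝ) (x : X) : x ∈ ekS h η x := by
  simp [ekS]

theorem ekS_closed (h : X → ℝ) (hl : LowerSemicontinuous h) (η : ℝ) (x : X) :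
    IsClosed (ekS h η x) := by
  have hc : Continuous (fun y => η * dist x y) := by fun_prop
  have hg : LowerSemicontinuous (fun y => h y + η * dist x y) := hl.add hc.lowerSemicontinuous
  exact hg.isClosed_preimage (h x)

theorem ekS_trans (h : X → ℝ) (η : ℝ) (hη : 0 ≤ η) {x y z : X} (hy : y ∈ ekS h η x)
    (hz : z ∈ ekS h η y) : z ∈ ekS h η x := by
  have hy' : h y + η * dist x y ≤ h x := hy
  have hz' : h z + η * dist y z ≤ h y := hz
  have h1 := dist_triangle x y z
  have h2 := mul_le_mul_of_nonneg_left h1 hη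
  show h z + η * dist x z ≤ h x
  linarith

theorem ekS_exists_near_inf (h : X → ℝ) (c : ℝ) (hc : ∀ x, c ≤ h x) (η : ℝ) (x : X) (ε : ℝ)
    (hε : 0 < ε) : ∃ y ∈ ekS h η x, ∀ z ∈ ekS h η x, h y ≤ h z + ε := by
  have hne : (h '' ekS h η x).Nonempty := ⟨h x, x, ekS_self h η x, rfl⟩
  have hbdd : BddBelow (h '' ekS h η x) := ⟨c, by rintro _ ⟨y, _, rfl⟩; exact hc y⟩
  obtain ⟨a, ⟨y, hy, rfl⟩, ha⟩ := Real.lt_sInf_add_pos hne hε
  refine ⟨y, hy, fun z hz => ?_⟩
  have h1 := csInf_le hbdd ⟨z, hz, rfl⟩
  linarith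

/-- Ekeland's variational principle on a complete metric space. -/
theorem ekeland [CompleteSpace X] (h : X → ℝ) (hl : LowerSemicontinuous h) (c : ℝ)
    (hc : ∀ x, c ≤ h x) (η : ℝ) (hη : 0 < η) (x0 : X) :
    ∃ x, h x + η * dist x0 x ≤ h x0 ∧ ∀ y, h x ≤ h y + η * dist x y := by
  classical
  have hch : ∀ (n : ℕ) (x : X), ∃ y ∈ ekS h η x, ∀ z ∈ ekS h η x, h y ≤ h z + (1 / 2 : ℝ) ^ n :=
    fun n x => ekS_exists_near_inf h c hc η x _ (by positivity)
  choose f hf1 hf2 using hch
  let u : ℕ → X := fun n => Nat.rec x0 (fun n x => f n x) n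
  have hus : ∀ n, u (n + 1) = f n (u n) := fun n => rfl
  have hSanti : ∀ n, ekS h η (u (n + 1)) ⊆ ekS h η (u n) := by
    intro n y hy
    refine ekS_trans h η hη.le ?_ hy
    rw [hus]
    exact hf1 n (u n)
  have hSanti' : ∀ m n, m ≤ n → ekS h η (u n) ⊆ ekS h η (u m) := by
    intro m n hmn
    induction n, hmn using Nat.le_induction with
    | base => exact subset_rfl
    | succ n hmn ih => exact (hSanti n).trans ih
  have hdist : ∀ n, ∀ y ∈ ekS h η (u (n + 1)), dist (u (n + 1)) y ≤ (1 / 2 : ℝ) ^ n / η := by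
    intro n y hy
    have h1 : h y + η * dist (u (n + 1)) y ≤ h (u (n + 1)) := hy
    have h2 : h (u (n + 1)) ≤ h y + (1 / 2 : ℝ) ^ n := by
      rw [hus]
      exact hf2 n (u n) y (hSanti n hy)
    rw [le_div_iff₀ hη]
    linarith
  have hdiam : ∀ n, Metric.diam (ekS h η (u (n + 1))) ≤ 2 * ((1 / 2 : ℝ) ^ n / η) := by
    intro n
    apply Metric.diam_le_of_forall_dist_le (by positivity)
    intro y hy z hz
    have h1 := dist_triangle y (u (n + 1)) z
    have h2 := hdist n y hy
    have h3 := hdist n z hz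
    rw [dist_comm y (u (n + 1))] at h1
    linarith
  have hbd : ∀ n, Bornology.IsBounded (ekS h η (u n)) := by
    intro n
    apply (Metric.isBounded_closedBall (x := u n) (r := (h (u n) - c) / η)).subset
    intro y hy
    rw [Metric.mem_closedBall, dist_comm, le_div_iff₀ hη]
    have h1 : h y + η * dist (u n) y ≤ h (u n) := hy
    have h2 := hc y
    linarith
  have hne : ∀ N, (⋂ n ≤ N, ekS h η (u n)).Nonempty := by
    intro N
    refine ⟨u N, ?_⟩
    simp only [mem_iInter]
    intro n hn
    exact hSanti' n N hn (ekS_self h η (u N))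
  have htend : Tendsto (fun n => Metric.diam (ekS h η (u n))) atTop (𝓝 0) := by
    rw [← tendsto_add_atTop_iff_nat 1]
    apply squeeze_zero (fun n => Metric.diam_nonneg) hdiam
    have h1 : Tendsto (fun n : ℕ => (1 / 2 : ℝ) ^ n) atTop (𝓝 0) :=
      tendsto_pow_atTop_nhds_zero_of_lt_one (by norm_num) (by norm_num)
    have h2 := (h1.div_const η).const_mul 2
    simpa using h2
  obtain ⟨x, hx⟩ := Metric.nonempty_iInter_of_nonempty_biInter
    (fun n => ekS_closed h hl η (u n)) hbd hne htend
  rw [mem_iInter] at hx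
  refine ⟨x, hx 0, ?_⟩
  intro y
  by_contra hcon
  rw [not_le] at hcon
  have hy : ∀ n, y ∈ ekS h η (u n) := by
    intro n
    exact ekS_trans h η hη.le (hx n) (show y ∈ ekS h η x from hcon.le)
  have hd : dist x y ≤ 0 := by
    apply ge_of_tendsto' htend
    intro n
    exact Metric.dist_le_diam_of_mem (hbd n) (hx n) (hy n)
  have hxy : x = y := dist_le_zero.mp hd
  subst hxy
  simp at hcon

/-- Ekeland's variational principle on a closed subset of a complete metric space. -/
theorem ekeland_on [CompleteSpace X] (D : Set X) (hD : IsClosed D) (h : X → ℝ)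
    (hl : LowerSemicontinuousOn h D) (c : ℝ) (hc : ∀ x ∈ D, c ≤ h x) (η : ℝ) (hη : 0 < η)
    (x0 : X) (hx0 : x0 ∈ D) :
    ∃ x ∈ D, h x + η * dist x0 x ≤ h x0 ∧ ∀ y ∈ D, h x ≤ h y + η * dist x y := by
  have hcs : CompleteSpace D := hD.completeSpace_coe
  have hl' : LowerSemicontinuous (D.domRestrict h) := lowerSemicontinuous_restrict_iff.mpr hl
  obtain ⟨x, hx1, hx2⟩ := ekeland (D.domRestrict h) hl' c (fun x => hc x.1 x.2) η hη ⟨x0, hx0⟩
  exact ⟨x.1, x.2, hx1, fun y hy => hx2 ⟨y, hy⟩⟩

end Vale.Agent.H94
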