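import Mathlib

/-!
# The largest term of a binomial distribution and a relative-entropy lower bound
-/

namespace Vale.Agent.H94

open Finset

/-- The binomial distribution with parameters `k` and `j / k` puts mass at least `1 / (k + 1)`
on `j` (its mode). -/
lemma binom_mode (k j : ℕ) (hj0 : 0 < j) (hjk : j < k) :
    1 ≤ ((k : ℝ) + 1) *
      ((k.choose j : ℝ) * ((j : ℝ) / k) ^ j * (1 - (j : ℝ) / k) ^ (k - j)) := by
  have hk0 : (0 : ℝ) < k := by exact_mod_cast (lt_trans hj0 hjk)
  have hjr : (0 : ℝ) < j := by exact_mod_cast hj0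
  have hjkr : (j : ℝ) < k := by exact_mod_cast hjk
  set x : ℝ := (j : ℝ) / k with hx
  set y : ℝ := 1 - (j : ℝ) / k with hy
  have hx0 : 0 < x := div_pos hjr hk0
  have hy0 : 0 < y := by
    rw [hy, sub_pos, div_lt_one hk0]
    exact hjkr
  have hkx : (k : ℝ) * x = j := by
    rw [hx]
    field_simp
  have hky : (k : ℝ) * y = k - j := by
    rw [hy, mul_sub, mul_one]
    congr 1
  set T : ℕ → ℝ := fun i => (k.choose i : ℝ) * x ^ i * y ^ (k - i) with hT
  have hT0 : ∀ i, 0 ≤ T i := fun i => by positivity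
  have hrec : ∀ i, i < k → T (i + 1) * ((i : ℝ) + 1) * ((k : ℝ) - j) = T i * ((k : ℝ) - i) * j := by
    intro i hi
    have hc : (k.choose (i + 1) : ℝ) * ((i : ℝ) + 1) = (k.choose i : ℝ) * ((k : ℝ) - i) := by
      have h1 := Nat.choose_succ_right_eq k i
      have h2 : ((k.choose (i + 1) * (i + 1) : ℕ) : ℝ) = ((k.choose i * (k - i) : ℕ) : ℝ) := by
        rw [h1]
      rw [Nat.cast_mul, Nat.cast_mul, Nat.cast_sub hi.le] at h2
      push_cast at h2
      exact h2
    have hyp : y ^ (k - i) = y ^ (k - (i + 1)) * y := by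
      rw [← pow_succ]
      congr 1
      omega
    simp only [hT]
    rw [hyp, pow_succ, ← hky, ← hkx]
    linear_combination (x ^ i * x * y ^ (k - (i + 1)) * y * (k : ℝ)) * hc
  have hup : ∀ i, i < j → T i ≤ T (i + 1) := by
    intro i hi
    have hik : i < k := lt_trans hi hjk
    have h := hrec i hik
    have hir : (i : ℝ) + 1 ≤ j := by exact_mod_cast hi
    have hpos : 0 < ((i : ℝ) + 1) * ((k : ℝ) - j) := by
      have : (0 : ℝ) ≤ i := Nat.cast_nonneg i
      exact mul_pos (by linarith) (by linarith)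
    have hcmp : ((i : ℝ) + 1) * ((k : ℝ) - j) ≤ ((k : ℝ) - i) * j := by nlinarith
    refine le_of_mul_le_mul_right ?_ hpos
    calc T i * (((i : ℝ) + 1) * ((k : ℝ) - j)) ≤ T i * (((k : ℝ) - i) * j) :=
          mul_le_mul_of_nonneg_left hcmp (hT0 i)
      _ = T (i + 1) * (((i : ℝ) + 1) * ((k : ℝ) - j)) := by linarith
  have hdown : ∀ i, j ≤ i → i < k → T (i + 1) ≤ T i := by
    intro i hji hik
    have h := hrec i hik
    have hir : (j : ℝ) ≤ i := by exact_mod_cast hji
    have hpos : 0 < ((i : ℝ) + 1) * ((k : ℝ) - j) := by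
      have : (0 : ℝ) ≤ i := Nat.cast_nonneg i
      exact mul_pos (by linarith) (by linarith)
    have hcmp : ((k : ℝ) - i) * j ≤ ((i : ℝ) + 1) * ((k : ℝ) - j) := by nlinarith
    refine le_of_mul_le_mul_right ?_ hpos
    calc T (i + 1) * (((i : ℝ) + 1) * ((k : ℝ) - j)) = T i * (((k : ℝ) - i) * j) := by linarith
      _ ≤ T i * (((i : ℝ) + 1) * ((k : ℝ) - j)) := mul_le_mul_of_nonneg_left hcmp (hT0 i)
  have hlow : ∀ d, d ≤ j → T (j - d) ≤ T j := by
    intro d
    induction d with
    | zero => intro _; simp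
    | succ d ih =>
      intro hd
      have h1 := hup (j - (d + 1)) (by omega)
      have e : j - (d + 1) + 1 = j - d := by omega
      rw [e] at h1
      exact le_trans h1 (ih (by omega))
  have hhigh : ∀ d, j + d ≤ k → T (j + d) ≤ T j := by
    intro d
    induction d with
    | zero => intro _; simp
    | succ d ih =>
      intro hd
      have h1 := hdown (j + d) (by omega) (by omega)
      exact le_trans h1 (ih (by omega))
  have hmax : ∀ i ∈ range (k + 1), T i ≤ T j := by
    intro i hi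
    have hik : i ≤ k := Nat.lt_succ_iff.mp (Finset.mem_range.mp hi)
    rcases le_total i j with h | h
    · have := hlow (j - i) (by omega)
      have e : j - (j - i) = i := by omega
      rwa [e] at this
    · have := hhigh (i - j) (by omega)
      have e : j + (i - j) = i := by omega
      rwa [e] at this
  have hsum : ∑ i ∈ range (k + 1), T i = 1 := by
    have h := add_pow x y k
    have hxy : x + y = 1 := by rw [hx, hy]; ring
    rw [hxy, one_pow] at h
    rw [h]
    refine Finset.sum_congr rfl fun i _ => ?_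
    simp only [hT]
    ring
  calc (1 : ℝ) = ∑ i ∈ range (k + 1), T i := hsum.symm
    _ ≤ ∑ _i ∈ range (k + 1), T j := Finset.sum_le_sum hmax
    _ = ((k : ℝ) + 1) * T j := by
        rw [Finset.sum_const, Finset.card_range, nsmul_eq_mul]
        push_cast
        ring

/-- Relative-entropy lower bound for a binomial term: with `x = j / k`,
`C(k, j) p^j (1 - p)^(k - j) ≥ exp (-k D(x ‖ p)) / (k + 1)`. -/
lemma binom_term_ge_exp (k j : ℕ) (hj0 : 0 < j) (hjk : j < k) (p : ℝ) (hp0 : 0 < p)
    (hp1 : p < 1) :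
    Real.exp (-((k : ℝ) * (((j : ℝ) / k) * Real.log (((j : ℝ) / k) / p)
        + (1 - (j : ℝ) / k) * Real.log ((1 - (j : ℝ) / k) / (1 - p))))) / ((k : ℝ) + 1)
      ≤ (k.choose j : ℝ) * p ^ j * (1 - p) ^ (k - j) := by
  have hk0 : (0 : ℝ) < k := by exact_mod_cast (lt_trans hj0 hjk)
  have hjr : (0 : ℝ) < j := by exact_mod_cast hj0
  have hjkr : (j : ℝ) < k := by exact_mod_cast hjk
  have hmode := binom_mode k j hj0 hjk
  set x : ℝ := (j : ℝ) / k with hx
  set y : ℝ := 1 - x with hy
  have hx0 : 0 < x := div_pos hjr hk0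
  have hy0 : 0 < y := by
    rw [hy, sub_pos, hx, div_lt_one hk0]
    exact hjkr
  have h1p : 0 < 1 - p := by linarith
  have hkx : (k : ℝ) * x = j := by
    rw [hx]
    field_simp
  have hky : (k : ℝ) * y = ((k - j : ℕ) : ℝ) := by
    rw [Nat.cast_sub hjk.le, hy, mul_sub, mul_one, hkx]
  have hpow : ∀ (z : ℝ) (n : ℕ), 0 < z → z ^ n = Real.exp ((n : ℝ) * Real.log z) := by
    intro z n hz
    rw [Real.exp_nat_mul, Real.exp_log hz]
  have hlx : Real.log (x / p) = Real.log x - Real.log p := Real.log_div hx0.ne' hp0.ne'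
  have hly : Real.log (y / (1 - p)) = Real.log y - Real.log (1 - p) :=
    Real.log_div hy0.ne' h1p.ne'
  have hkpos : (0 : ℝ) < (k : ℝ) + 1 := by linarith
  have hC : (0 : ℝ) ≤ (k.choose j : ℝ) := Nat.cast_nonneg _
  rw [div_le_iff₀ hkpos]
  have hL : p ^ j * (1 - p) ^ (k - j)
      = Real.exp ((j : ℝ) * Real.log p + ((k - j : ℕ) : ℝ) * Real.log (1 - p)) := by
    rw [hpow p j hp0, hpow (1 - p) (k - j) h1p, ← Real.exp_add]
  have hR : x ^ j * y ^ (k - j) *
        Real.exp (-((k : ℝ) * (x * Real.log (x / p) + y * Real.log (y / (1 - p)))))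
      = Real.exp ((j : ℝ) * Real.log x + ((k - j : ℕ) : ℝ) * Real.log y
          + -((k : ℝ) * (x * Real.log (x / p) + y * Real.log (y / (1 - p))))) := by
    rw [hpow x j hx0, hpow y (k - j) hy0, ← Real.exp_add, ← Real.exp_add]
  have e1 : (k.choose j : ℝ) * p ^ j * (1 - p) ^ (k - j)
      = ((k.choose j : ℝ) * x ^ j * y ^ (k - j)) *
        Real.exp (-((k : ℝ) * (x * Real.log (x / p) + y * Real.log (y / (1 - p))))) := by
    have a1 : (k.choose j : ℝ) * p ^ j * (1 - p) ^ (k - j)
        = (k.choose j : ℝ) * (p ^ j * (1 - p) ^ (k - j)) := by ring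
    have a2 : ((k.choose j : ℝ) * x ^ j * y ^ (k - j)) *
          Real.exp (-((k : ℝ) * (x * Real.log (x / p) + y * Real.log (y / (1 - p)))))
        = (k.choose j : ℝ) * (x ^ j * y ^ (k - j) *
          Real.exp (-((k : ℝ) * (x * Real.log (x / p) + y * Real.log (y / (1 - p)))))) := by
      ring
    rw [a1, a2, hL, hR, hlx, hly]
    congr 2
    linear_combination (Real.log x - Real.log p) * hkx
      + (Real.log y - Real.log (1 - p)) * hky
  rw [e1]
  have hE := Real.exp_pos (-((k : ℝ) * (x * Real.log (x / p) + y * Real.log (y / (1 - p)))))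
  calc Real.exp (-((k : ℝ) * (x * Real.log (x / p) + y * Real.log (y / (1 - p)))))
      = 1 * Real.exp (-((k : ℝ) * (x * Real.log (x / p) + y * Real.log (y / (1 - p))))) := by
        ring
    _ ≤ (((k : ℝ) + 1) * ((k.choose j : ℝ) * x ^ j * y ^ (k - j))) *
        Real.exp (-((k : ℝ) * (x * Real.log (x / p) + y * Real.log (y / (1 - p))))) :=
        mul_le_mul_of_nonneg_right hmode hE.le
    _ = _ := by ring

end Vale.Agent.H94
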