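import Mathlib

/-!
# A Chernoff-type tail bound from product-moment bounds

If sign variables `Z i = ±1` on a finite weighted space satisfy
`E[∏_{i ∈ S} Z i] ≤ ε ^ |S|` for every set `S` of coordinates, then the number of `+1`s
exceeds `((1 + ε) / 2 + δ) k` with weight at most `exp (-2 δ² k)`.
-/

namespace Vale.Agent.H94

open Finset

lemma sinh_le_mul_cosh {s : ℝ} (hs : 0 ≤ s) : Real.sinh s ≤ s * Real.cosh s := by
  have hd : ∀ x : ℝ, HasDerivAt (fun t : ℝ => t * Real.cosh t - Real.sinh t)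
      (1 * Real.cosh x + x * Real.sinh x - Real.cosh x) x := fun x =>
    ((hasDerivAt_id x).mul (Real.hasDerivAt_cosh x)).sub (Real.hasDerivAt_sinh x)
  have hmono : MonotoneOn (fun t : ℝ => t * Real.cosh t - Real.sinh t) (Set.Ici 0) := by
    apply monotoneOn_of_deriv_nonneg (convex_Ici 0)
    · exact fun x _ => (hd x).continuousAt.continuousWithinAt
    · exact fun x _ => (hd x).differentiableAt.differentiableWithinAt
    · intro x hx
      rw [(hd x).deriv]
      have hx0 : 0 ≤ x := by
        rw [interior_Ici] at hx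
        exact le_of_lt hx
      have := mul_nonneg hx0 (Real.sinh_nonneg_iff.mpr hx0)
      linarith
  have h := hmono (Set.mem_Ici.mpr le_rfl) (Set.mem_Ici.mpr hs) hs
  simp only [zero_mul, Real.sinh_zero, sub_zero] at h
  linarith

lemma cosh_add_mul_sinh_le {ε s : ℝ} (hε : 0 ≤ ε) (hs : 0 ≤ s) :
    Real.cosh s + ε * Real.sinh s ≤ Real.exp (ε * s + s ^ 2 / 2) := by
  have h1 := sinh_le_mul_cosh hs
  have h2 := Real.cosh_le_exp_half_sq s
  have h3 : 1 + ε * s ≤ Real.exp (ε * s) := by linarith [Real.add_one_le_exp (ε * s)]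
  have hc : 0 < Real.cosh s := Real.cosh_pos s
  have h4 : 0 ≤ 1 + ε * s := by positivity
  calc Real.cosh s + ε * Real.sinh s ≤ Real.cosh s + ε * (s * Real.cosh s) := by gcongr
    _ = Real.cosh s * (1 + ε * s) := by ring
    _ ≤ Real.exp (s ^ 2 / 2) * Real.exp (ε * s) :=
        mul_le_mul h2 h3 h4 (Real.exp_pos _).le
    _ = Real.exp (ε * s + s ^ 2 / 2) := by rw [← Real.exp_add]; ring_nf

/-- Chernoff-type bound from product-moment bounds for sign variables. -/
theorem chernoff_of_moments {Ω : Type} [Fintype Ω] {k : ℕ} (p : Ω → ℝ) (hp : ∀ ω, 0 ≤ p ω)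
    (w : Fin k → Ω → Bool) (ε : ℝ) (hε : 0 ≤ ε)
    (H : ∀ S : Finset (Fin k),
      ∑ ω, p ω * ∏ i ∈ S, (if w i ω = true then (1 : ℝ) else -1) ≤ ε ^ S.card)
    (δ : ℝ) (hδ : 0 < δ) :
    ∑ ω, (if ((1 + ε) / 2 + δ) * k ≤ ((univ.filter fun i => w i ω = true).card : ℝ)
        then p ω else 0) ≤ Real.exp (-(2 * δ ^ 2 * k)) := by
  classical
  set s : ℝ := 2 * δ with hs
  have hs0 : 0 ≤ s := by positivity
  set Z : Fin k → Ω → ℝ := fun i ω => if w i ω = true then 1 else -1 with hZ
  set W : Ω → ℝ := fun ω => ((univ.filter fun i => w i ω = true).card : ℝ) with hW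
  have hsinh : 0 ≤ Real.sinh s := Real.sinh_nonneg_iff.mpr hs0
  have hcosh : 0 ≤ Real.cosh s := (Real.cosh_pos s).le
  have hsum : ∀ ω, ∑ i, Z i ω = 2 * W ω - k := by
    intro ω
    have hcard := Finset.card_filter_add_card_filter_not
      (s := (univ : Finset (Fin k))) (fun i => w i ω = true)
    rw [Finset.card_univ, Fintype.card_fin] at hcard
    have hcard' : ((univ.filter fun i => w i ω = true).card : ℝ)
        + ((univ.filter fun i => ¬ (w i ω = true)).card : ℝ) = k := by
      exact_mod_cast hcard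
    simp only [hZ, hW]
    rw [Finset.sum_ite]
    simp only [sum_const, nsmul_eq_mul, mul_one, mul_neg]
    linarith
  have hexp : ∀ i ω, Real.exp (s * Z i ω) = Z i ω * Real.sinh s + Real.cosh s := by
    intro i ω
    simp only [hZ]
    split_ifs
    · rw [mul_one, one_mul, add_comm, Real.cosh_add_sinh]
    · rw [mul_neg_one, neg_one_mul, add_comm, ← sub_eq_add_neg, Real.cosh_sub_sinh]
  have hexpand : ∀ ω, Real.exp (s * (2 * W ω - k))
      = ∑ S ∈ (univ : Finset (Fin k)).powerset,
          (∏ i ∈ S, Z i ω * Real.sinh s) * ∏ _i ∈ univ \ S, Real.cosh s := by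
    intro ω
    rw [← hsum ω, Finset.mul_sum, Real.exp_sum]
    simp_rw [hexp]
    rw [Finset.prod_add]
  have hmgf : ∑ ω, p ω * Real.exp (s * (2 * W ω - k))
      ≤ (ε * Real.sinh s + Real.cosh s) ^ k := by
    have h1 : ∑ ω, p ω * Real.exp (s * (2 * W ω - k))
        = ∑ S ∈ (univ : Finset (Fin k)).powerset,
            (Real.sinh s ^ S.card * Real.cosh s ^ (k - S.card))
              * ∑ ω, p ω * ∏ i ∈ S, Z i ω := by
      simp_rw [hexpand, Finset.mul_sum]
      rw [Finset.sum_comm]
      refine Finset.sum_congr rfl fun S hS => ?_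
      refine Finset.sum_congr rfl fun ω _ => ?_
      rw [Finset.prod_mul_distrib, Finset.prod_const, Finset.prod_const,
        Finset.card_sdiff_of_subset (Finset.subset_univ S), Finset.card_univ, Fintype.card_fin]
      ring
    rw [h1]
    have h2 : ∑ S ∈ (univ : Finset (Fin k)).powerset,
            (Real.sinh s ^ S.card * Real.cosh s ^ (k - S.card))
              * ∑ ω, p ω * ∏ i ∈ S, Z i ω
        ≤ ∑ S ∈ (univ : Finset (Fin k)).powerset,
            (Real.sinh s ^ S.card * Real.cosh s ^ (k - S.card)) * ε ^ S.card := by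
      refine Finset.sum_le_sum fun S _ => ?_
      exact mul_le_mul_of_nonneg_left (H S) (by positivity)
    refine h2.trans (le_of_eq ?_)
    have h3 := Finset.sum_pow_mul_eq_add_pow (ε * Real.sinh s) (Real.cosh s)
      (univ : Finset (Fin k))
    rw [Finset.card_univ, Fintype.card_fin] at h3
    rw [← h3]
    refine Finset.sum_congr rfl fun S _ => ?_
    rw [mul_pow]
    ring
  have hbase : ε * Real.sinh s + Real.cosh s ≤ Real.exp (ε * s + s ^ 2 / 2) := by
    have := cosh_add_mul_sinh_le hε hs0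
    linarith
  have hbase0 : 0 ≤ ε * Real.sinh s + Real.cosh s := by positivity
  have hpow : (ε * Real.sinh s + Real.cosh s) ^ k ≤ Real.exp ((ε * s + s ^ 2 / 2) * k) := by
    calc (ε * Real.sinh s + Real.cosh s) ^ k ≤ Real.exp (ε * s + s ^ 2 / 2) ^ k :=
          pow_le_pow_left₀ hbase0 hbase k
      _ = Real.exp ((ε * s + s ^ 2 / 2) * k) := by
          rw [← Real.exp_nat_mul]; ring_nf
  have hind : ∀ ω, (if ((1 + ε) / 2 + δ) * k ≤ W ω then p ω else 0)
      ≤ Real.exp (-(s * (ε + 2 * δ) * k)) * (p ω * Real.exp (s * (2 * W ω - k))) := by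
    intro ω
    split_ifs with h
    · have hge : s * (ε + 2 * δ) * k ≤ s * (2 * W ω - k) := by
        have : (ε + 2 * δ) * k ≤ 2 * W ω - k := by linarith
        calc s * (ε + 2 * δ) * k = s * ((ε + 2 * δ) * k) := by ring
          _ ≤ s * (2 * W ω - k) := mul_le_mul_of_nonneg_left this hs0
      have h1 : 1 ≤ Real.exp (-(s * (ε + 2 * δ) * k)) * Real.exp (s * (2 * W ω - k)) := by
        rw [← Real.exp_add]
        apply Real.one_le_exp
        linarith
      calc p ω = p ω * 1 := by ring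
        _ ≤ p ω * (Real.exp (-(s * (ε + 2 * δ) * k)) * Real.exp (s * (2 * W ω - k))) :=
            mul_le_mul_of_nonneg_left h1 (hp ω)
        _ = _ := by ring
    · have := hp ω
      positivity
  calc ∑ ω, (if ((1 + ε) / 2 + δ) * k ≤ W ω then p ω else 0)
      ≤ ∑ ω, Real.exp (-(s * (ε + 2 * δ) * k)) * (p ω * Real.exp (s * (2 * W ω - k))) :=
        Finset.sum_le_sum fun ω _ => hind ω
    _ = Real.exp (-(s * (ε + 2 * δ) * k)) * ∑ ω, p ω * Real.exp (s * (2 * W ω - k)) := by
        rw [Finset.mul_sum]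
    _ ≤ Real.exp (-(s * (ε + 2 * δ) * k)) * Real.exp ((ε * s + s ^ 2 / 2) * k) :=
        mul_le_mul_of_nonneg_left (hmgf.trans hpow) (Real.exp_pos _).le
    _ = Real.exp (-(2 * δ ^ 2 * k)) := by
        rw [← Real.exp_add, hs]
        congr 1
        ring

end Vale.Agent.H94
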