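import Mathlib

/-!
# Hoeffding's lemma for two-point distributions and a Chernoff bound from moment-generating bounds
-/

namespace Vale.Agent.H94

open Finset

lemma two_point_pos {ε : ℝ} (hε : |ε| ≤ 1) (t : ℝ) : 0 < Real.cosh t + ε * Real.sinh t := by
  have h1 : -1 ≤ ε := (abs_le.mp hε).1
  have h2 : ε ≤ 1 := (abs_le.mp hε).2
  have e : Real.cosh t + ε * Real.sinh t
      = (1 + ε) / 2 * Real.exp t + (1 - ε) / 2 * Real.exp (-t) := by
    rw [Real.cosh_eq, Real.sinh_eq]
    ring
  rw [e]
  have hp1 := Real.exp_pos t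
  have hp2 := Real.exp_pos (-t)
  rcases le_total 0 ε with h | h
  · have a1 : 0 < (1 + ε) / 2 * Real.exp t := mul_pos (by linarith) hp1
    have a2 : 0 ≤ (1 - ε) / 2 * Real.exp (-t) := mul_nonneg (by linarith) hp2.le
    linarith
  · have a1 : 0 ≤ (1 + ε) / 2 * Real.exp t := mul_nonneg (by linarith) hp1.le
    have a2 : 0 < (1 - ε) / 2 * Real.exp (-t) := mul_pos (by linarith) hp2
    linarith

/-- Hoeffding's lemma for a sign variable with mean `ε`. -/
lemma two_point_hoeffding {ε : ℝ} (hε : |ε| ≤ 1) (t : ℝ) :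
    Real.cosh t + ε * Real.sinh t ≤ Real.exp (ε * t + t ^ 2 / 2) := by
  set D : ℝ → ℝ := fun t => Real.cosh t + ε * Real.sinh t with hD
  set N : ℝ → ℝ := fun t => Real.sinh t + ε * Real.cosh t with hN
  have hDpos : ∀ t, 0 < D t := fun t => two_point_pos hε t
  have hDd : ∀ t, HasDerivAt D (N t) t := fun t =>
    (Real.hasDerivAt_cosh t).add ((Real.hasDerivAt_sinh t).const_mul ε)
  have hNd : ∀ t, HasDerivAt N (D t) t := fun t =>
    (Real.hasDerivAt_sinh t).add ((Real.hasDerivAt_cosh t).const_mul ε)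
  have hDN : ∀ t, D t * D t - N t * N t = 1 - ε ^ 2 := by
    intro t
    simp only [hD, hN]
    have h := Real.cosh_sq t
    linear_combination (1 - ε ^ 2) * h
  set R : ℝ → ℝ := fun t => ε + t - N t / D t with hR
  have hRd : ∀ t, HasDerivAt R (1 - (D t * D t - N t * N t) / (D t) ^ 2) t := fun t => by
    have h1 := (hNd t).div (hDd t) (hDpos t).ne'
    have h2 := ((hasDerivAt_id t).const_add ε).sub h1
    exact h2
  have hRmono : Monotone R := by
    apply monotone_of_deriv_nonneg
    · exact fun t => (hRd t).differentiableAt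
    · intro t
      rw [(hRd t).deriv, hDN t]
      have hD2 : 0 < (D t) ^ 2 := by
        have := hDpos t
        positivity
      have : (1 - ε ^ 2) / (D t) ^ 2 ≤ 1 := by
        rw [div_le_one hD2]
        nlinarith [hDN t, mul_self_nonneg (N t)]
      linarith
  have hR0 : R 0 = 0 := by simp [hR, hN, hD]
  set G : ℝ → ℝ := fun t => ε * t + t ^ 2 / 2 - Real.log (D t) with hG
  have hGd : ∀ t, HasDerivAt G (R t) t := fun t => by
    have h1 := (hDd t).log (hDpos t).ne'
    have a : HasDerivAt (fun y : ℝ => ε * y) ε t := by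
      simpa using (hasDerivAt_id' t).const_mul ε
    have b : HasDerivAt (fun y : ℝ => y ^ 2 / 2) t t := by
      have h := (hasDerivAt_pow 2 t).div_const 2
      have e : ((2 : ℕ) : ℝ) * t ^ (2 - 1) / 2 = t := by
        norm_num
      rw [e] at h
      exact h
    exact (a.add b).sub h1
  have hG0 : G 0 = 0 := by simp [hG, hD]
  have hGnn : 0 ≤ G t := by
    rcases le_total 0 t with ht | ht
    · have hmono : MonotoneOn G (Set.Ici 0) := by
        apply monotoneOn_of_deriv_nonneg (convex_Ici 0)
        · exact fun x _ => (hGd x).continuousAt.continuousWithinAt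
        · exact fun x _ => (hGd x).differentiableAt.differentiableWithinAt
        · intro x hx
          rw [(hGd x).deriv]
          rw [interior_Ici] at hx
          have := hRmono (le_of_lt hx)
          rw [hR0] at this
          exact this
      have := hmono (Set.mem_Ici.mpr le_rfl) (Set.mem_Ici.mpr ht) ht
      rw [hG0] at this
      exact this
    · have hanti : AntitoneOn G (Set.Iic 0) := by
        apply antitoneOn_of_deriv_nonpos (convex_Iic 0)
        · exact fun x _ => (hGd x).continuousAt.continuousWithinAt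
        · exact fun x _ => (hGd x).differentiableAt.differentiableWithinAt
        · intro x hx
          rw [(hGd x).deriv]
          rw [interior_Iic] at hx
          have := hRmono (le_of_lt hx)
          rw [hR0] at this
          exact this
      have := hanti (Set.mem_Iic.mpr ht) (Set.mem_Iic.mpr le_rfl) ht
      rw [hG0] at this
      exact this
  have hlog : Real.log (D t) ≤ ε * t + t ^ 2 / 2 := by
    simp only [hG] at hGnn
    linarith
  calc Real.cosh t + ε * Real.sinh t = Real.exp (Real.log (D t)) :=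
        (Real.exp_log (hDpos t)).symm
    _ ≤ Real.exp (ε * t + t ^ 2 / 2) := Real.exp_le_exp.mpr hlog

/-- Hoeffding's lemma for a Bernoulli variable with mean `v`. -/
lemma bernoulli_mgf_le {v : ℝ} (hv0 : 0 ≤ v) (hv1 : v ≤ 1) (s : ℝ) :
    1 + (Real.exp s - 1) * v ≤ Real.exp (v * s + s ^ 2 / 8) := by
  have h := two_point_hoeffding (ε := 2 * v - 1) (by rw [abs_le]; constructor <;> linarith) (s / 2)
  have h2 : Real.exp s = Real.exp (s / 2) * Real.exp (s / 2) := by
    rw [← Real.exp_add]
    ring_nf
  have h3 : Real.exp (s / 2) * Real.exp (-(s / 2)) = 1 := by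
    rw [← Real.exp_add]
    simp
  have e1 : 1 + (Real.exp s - 1) * v
      = Real.exp (s / 2) * (Real.cosh (s / 2) + (2 * v - 1) * Real.sinh (s / 2)) := by
    rw [Real.cosh_eq, Real.sinh_eq]
    linear_combination v * h2 + (v - 1) * h3
  rw [e1]
  calc Real.exp (s / 2) * (Real.cosh (s / 2) + (2 * v - 1) * Real.sinh (s / 2))
      ≤ Real.exp (s / 2) * Real.exp ((2 * v - 1) * (s / 2) + (s / 2) ^ 2 / 2) :=
        mul_le_mul_of_nonneg_left h (Real.exp_pos _).le
    _ = Real.exp (v * s + s ^ 2 / 8) := by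
        rw [← Real.exp_add]
        ring_nf

/-- Chernoff bound from a Bernoulli-type bound on the generating function of the number of
wins. -/
theorem chernoff_of_win_mgf {Ω : Type} [Fintype Ω] {k : ℕ} (p : Ω → ℝ) (hp : ∀ ω, 0 ≤ p ω)
    (w : Fin k → Ω → Bool) (v : ℝ) (hv0 : 0 ≤ v) (hv1 : v ≤ 1)
    (H : ∀ l : ℝ, 0 ≤ l →
      ∑ ω, p ω * ∏ i, (1 + l * (if w i ω = true then (1 : ℝ) else 0)) ≤ (1 + l * v) ^ k)
    (δ : ℝ) (hδ : 0 < δ) :
    ∑ ω, (if (v + δ) * k ≤ ((univ.filter fun i => w i ω = true).card : ℝ)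
        then p ω else 0) ≤ Real.exp (-(2 * δ ^ 2 * k)) := by
  classical
  set s : ℝ := 4 * δ with hs
  have hs0 : 0 ≤ s := by positivity
  set W : Ω → ℝ := fun ω => ((univ.filter fun i => w i ω = true).card : ℝ) with hW
  have hl : 0 ≤ Real.exp s - 1 := by
    have := Real.one_le_exp hs0
    linarith
  have hprod : ∀ ω, ∏ i, (1 + (Real.exp s - 1) * (if w i ω = true then (1 : ℝ) else 0))
      = Real.exp (s * W ω) := by
    intro ω
    have h1 : ∀ i, (1 + (Real.exp s - 1) * (if w i ω = true then (1 : ℝ) else 0))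
        = if w i ω = true then Real.exp s else 1 := by
      intro i
      split_ifs <;> ring
    simp only [h1]
    rw [Finset.prod_ite, Finset.prod_const, Finset.prod_const_one, mul_one, hW,
      mul_comm s, Real.exp_nat_mul]
  have hmgf : ∑ ω, p ω * Real.exp (s * W ω) ≤ Real.exp ((v * s + s ^ 2 / 8) * k) := by
    have h1 := H (Real.exp s - 1) hl
    simp only [hprod] at h1
    have h2 : (1 + (Real.exp s - 1) * v) ^ k ≤ Real.exp (v * s + s ^ 2 / 8) ^ k := by
      apply pow_le_pow_left₀ _ (bernoulli_mgf_le hv0 hv1 s)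
      have := mul_nonneg hl hv0
      linarith
    calc ∑ ω, p ω * Real.exp (s * W ω) ≤ (1 + (Real.exp s - 1) * v) ^ k := h1
      _ ≤ Real.exp (v * s + s ^ 2 / 8) ^ k := h2
      _ = Real.exp ((v * s + s ^ 2 / 8) * k) := by
          rw [← Real.exp_nat_mul]
          ring_nf
  have hind : ∀ ω, (if (v + δ) * k ≤ W ω then p ω else 0)
      ≤ Real.exp (-(s * (v + δ) * k)) * (p ω * Real.exp (s * W ω)) := by
    intro ω
    split_ifs with h
    · have hge : s * (v + δ) * k ≤ s * W ω := by
        calc s * (v + δ) * k = s * ((v + δ) * k) := by ring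
          _ ≤ s * W ω := mul_le_mul_of_nonneg_left h hs0
      have h1 : 1 ≤ Real.exp (-(s * (v + δ) * k)) * Real.exp (s * W ω) := by
        rw [← Real.exp_add]
        apply Real.one_le_exp
        linarith
      calc p ω = p ω * 1 := by ring
        _ ≤ p ω * (Real.exp (-(s * (v + δ) * k)) * Real.exp (s * W ω)) :=
            mul_le_mul_of_nonneg_left h1 (hp ω)
        _ = _ := by ring
    · have := hp ω
      positivity
  calc ∑ ω, (if (v + δ) * k ≤ W ω then p ω else 0)
      ≤ ∑ ω, Real.exp (-(s * (v + δ) * k)) * (p ω * Real.exp (s * W ω)) :=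
        Finset.sum_le_sum fun ω _ => hind ω
    _ = Real.exp (-(s * (v + δ) * k)) * ∑ ω, p ω * Real.exp (s * W ω) := by
        rw [Finset.mul_sum]
    _ ≤ Real.exp (-(s * (v + δ) * k)) * Real.exp ((v * s + s ^ 2 / 8) * k) :=
        mul_le_mul_of_nonneg_left hmgf (Real.exp_pos _).le
    _ = Real.exp (-(2 * δ ^ 2 * k)) := by
        rw [← Real.exp_add, hs]
        congr 1
        ring

end Vale.Agent.H94
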