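import Mathlib

/-!
# The sharp Chernoff bound (relative entropy rate) from a Bernoulli-type generating bound
-/

namespace Vale.Agent.H94

open Finset

/-- Sharp Chernoff bound: if the generating function of the number of wins is bounded by that
of a binomial variable with success probability `v`, then the probability of at least `a k`
wins, `v < a < 1`, is at most `exp (-k D(a ‖ v))` with `D` the binary relative entropy. -/
theorem chernoff_kl_of_win_mgf {Ω : Type} [Fintype Ω] {k : ℕ} (p : Ω → ℝ) (hp : ∀ ω, 0 ≤ p ω)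
    (w : Fin k → Ω → Bool) (v : ℝ) (hv0 : 0 < v)
    (H : ∀ l : ℝ, 0 ≤ l →
      ∑ ω, p ω * ∏ i, (1 + l * (if w i ω = true then (1 : ℝ) else 0)) ≤ (1 + l * v) ^ k)
    (a : ℝ) (hva : v < a) (ha1 : a < 1) :
    ∑ ω, (if a * k ≤ ((univ.filter fun i => w i ω = true).card : ℝ) then p ω else 0)
      ≤ Real.exp (-((a * Real.log (a / v) + (1 - a) * Real.log ((1 - a) / (1 - v))) * k)) := by
  classical
  have ha0 : 0 < a := lt_trans hv0 hva
  have hv1 : v < 1 := lt_trans hva ha1
  have h1a : 0 < 1 - a := by linarith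
  have h1v : 0 < 1 - v := by linarith
  set l : ℝ := (a - v) / (v * (1 - a)) with hl
  have hl0 : 0 ≤ l := div_nonneg (by linarith) (mul_pos hv0 h1a).le
  have hR : 1 + l = (a / v) * ((1 - v) / (1 - a)) := by
    rw [hl]
    field_simp
    ring
  have hS : 1 + l * v = (1 - v) / (1 - a) := by
    rw [hl]
    field_simp
    ring
  have hRpos : 0 < 1 + l := by linarith
  have hav : 0 < a / v := div_pos ha0 hv0
  have hq : 0 < (1 - v) / (1 - a) := div_pos h1v h1a
  have hlogR : Real.log (1 + l) = Real.log (a / v) + Real.log ((1 - v) / (1 - a)) := by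
    rw [hR, Real.log_mul hav.ne' hq.ne']
  have hlogR0 : 0 ≤ Real.log (1 + l) := Real.log_nonneg (by linarith)
  have hlogq : Real.log ((1 - a) / (1 - v)) = -Real.log ((1 - v) / (1 - a)) := by
    rw [← Real.log_inv, inv_div]
  set W : Ω → ℕ := fun ω => (univ.filter fun i => w i ω = true).card with hW
  have hprod : ∀ ω, ∏ i, (1 + l * (if w i ω = true then (1 : ℝ) else 0)) = (1 + l) ^ W ω := by
    intro ω
    have h1 : ∀ i, (1 + l * (if w i ω = true then (1 : ℝ) else 0))
        = if w i ω = true then 1 + l else 1 := by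
      intro i
      split_ifs <;> ring
    simp only [h1]
    rw [Finset.prod_ite, Finset.prod_const, Finset.prod_const_one, mul_one]
  have hmgf : ∑ ω, p ω * (1 + l) ^ W ω ≤ ((1 - v) / (1 - a)) ^ k := by
    have h1 := H l hl0
    simp only [hprod] at h1
    rw [hS] at h1
    exact h1
  have hind : ∀ ω, (if a * k ≤ (W ω : ℝ) then p ω else 0)
      ≤ Real.exp (-(a * k * Real.log (1 + l))) * (p ω * (1 + l) ^ W ω) := by
    intro ω
    split_ifs with h
    · have hpow : (1 + l) ^ W ω = Real.exp ((W ω : ℝ) * Real.log (1 + l)) := by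
        rw [← Real.rpow_natCast, Real.rpow_def_of_pos hRpos, mul_comm]
      have hge : a * k * Real.log (1 + l) ≤ (W ω : ℝ) * Real.log (1 + l) :=
        mul_le_mul_of_nonneg_right h hlogR0
      have h1 : 1 ≤ Real.exp (-(a * k * Real.log (1 + l))) * (1 + l) ^ W ω := by
        rw [hpow, ← Real.exp_add]
        apply Real.one_le_exp
        linarith
      calc p ω = p ω * 1 := by ring
        _ ≤ p ω * (Real.exp (-(a * k * Real.log (1 + l))) * (1 + l) ^ W ω) :=
            mul_le_mul_of_nonneg_left h1 (hp ω)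
        _ = _ := by ring
    · have := hp ω
      positivity
  have hSk : ((1 - v) / (1 - a)) ^ k = Real.exp ((k : ℝ) * Real.log ((1 - v) / (1 - a))) := by
    rw [← Real.rpow_natCast, Real.rpow_def_of_pos hq, mul_comm]
  calc ∑ ω, (if a * k ≤ (W ω : ℝ) then p ω else 0)
      ≤ ∑ ω, Real.exp (-(a * k * Real.log (1 + l))) * (p ω * (1 + l) ^ W ω) :=
        Finset.sum_le_sum fun ω _ => hind ω
    _ = Real.exp (-(a * k * Real.log (1 + l))) * ∑ ω, p ω * (1 + l) ^ W ω := by
        rw [Finset.mul_sum]
    _ ≤ Real.exp (-(a * k * Real.log (1 + l))) * ((1 - v) / (1 - a)) ^ k :=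
        mul_le_mul_of_nonneg_left hmgf (Real.exp_pos _).le
    _ = Real.exp (-((a * Real.log (a / v) + (1 - a) * Real.log ((1 - a) / (1 - v))) * k)) := by
        rw [hSk, ← Real.exp_add, hlogR, hlogq]
        congr 1
        ring

end Vale.Agent.H94
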