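import Mathlib

/-!
# Real Clifford matrices (Jordan-Wigner construction)

Real symmetric matrices `cliff i`, `i : Fin n`, of size `2^n`, which pairwise anticommute and
square to the identity, and the associated linear combinations `cliffLin w = ∑ i, w i • cliff i`.
-/

namespace Vale.Agent.H94

open Finset Matrix

variable {n : ℕ}

/-- Flip the `i`-th bit of a bit string. -/
def bflip (i : Fin n) (s : Fin n → Bool) : Fin n → Bool := Function.update s i (!s i)

lemma bflip_same (i : Fin n) (s : Fin n → Bool) : bflip i s i = !s i := by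
  simp [bflip]

lemma bflip_of_ne {i j : Fin n} (h : j ≠ i) (s : Fin n → Bool) : bflip i s j = s j := by
  simp [bflip, Function.update_of_ne h]

lemma bflip_bflip (i : Fin n) (s : Fin n → Bool) : bflip i (bflip i s) = s := by
  funext j
  by_cases h : j = i
  · subst h
    simp [bflip_same]
  · simp [bflip_of_ne h]

lemma bflip_ne (i : Fin n) (s : Fin n → Bool) : bflip i s ≠ s := fun h => by
  have := congrFun h i
  simp [bflip_same] at this

lemma bflip_comm (i j : Fin n) (s : Fin n → Bool) :
    bflip i (bflip j s) = bflip j (bflip i s) := by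
  funext l
  by_cases hi : l = i <;> by_cases hj : l = j
  · subst hi
    subst hj
    rfl
  · subst hi
    simp [bflip_same, bflip_of_ne hj]
  · subst hj
    simp [bflip_same, bflip_of_ne hi]
  · simp [bflip_of_ne hi, bflip_of_ne hj]

/-- The Jordan-Wigner sign: `(-1)` to the number of set bits before position `i`. -/
noncomputable def jwSign (i : Fin n) (s : Fin n → Bool) : ℝ :=
  ∏ j ∈ Finset.univ.filter (fun j => j < i), (if s j = true then (-1 : ℝ) else 1)

lemma jwSign_mul_self (i : Fin n) (s : Fin n → Bool) : jwSign i s * jwSign i s = 1 := by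
  unfold jwSign
  rw [← Finset.prod_mul_distrib]
  apply Finset.prod_eq_one
  intro j _
  split_ifs <;> norm_num

lemma jwSign_bflip_of_not_lt {i j : Fin n} (h : ¬ j < i) (s : Fin n → Bool) :
    jwSign i (bflip j s) = jwSign i s := by
  unfold jwSign
  refine Finset.prod_congr rfl fun l hl => ?_
  have hl' : l < i := (Finset.mem_filter.mp hl).2
  have hne : l ≠ j := fun e => h (e ▸ hl')
  rw [bflip_of_ne hne]

lemma jwSign_bflip_of_lt {i j : Fin n} (h : j < i) (s : Fin n → Bool) :
    jwSign i (bflip j s) = - jwSign i s := by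
  unfold jwSign
  have hj : j ∈ Finset.univ.filter (fun l => l < i) := by simp [h]
  rw [← Finset.mul_prod_erase _ _ hj, ← Finset.mul_prod_erase _ _ hj]
  have hrest : ∏ l ∈ (Finset.univ.filter (fun l => l < i)).erase j,
        (if bflip j s l = true then (-1 : ℝ) else 1)
      = ∏ l ∈ (Finset.univ.filter (fun l => l < i)).erase j,
        (if s l = true then (-1 : ℝ) else 1) := by
    refine Finset.prod_congr rfl fun l hl => ?_
    rw [bflip_of_ne (Finset.ne_of_mem_erase hl)]
  rw [hrest, bflip_same]
  cases s j <;> simp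

/-- The `i`-th Clifford matrix: `Z ⊗ ⋯ ⊗ Z ⊗ X ⊗ 1 ⊗ ⋯ ⊗ 1` with `X` in position `i`. -/
noncomputable def cliff (i : Fin n) : Matrix (Fin n → Bool) (Fin n → Bool) ℝ :=
  fun s t => if t = bflip i s then jwSign i s else 0

lemma cliff_mul_apply (i j : Fin n) (s t : Fin n → Bool) :
    (cliff i * cliff j) s t
      = if t = bflip j (bflip i s) then jwSign i s * jwSign j (bflip i s) else 0 := by
  simp only [Matrix.mul_apply, cliff]
  rw [Finset.sum_eq_single (bflip i s)]
  · simp
  · intro r _ hr
    simp [hr]
  · intro h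
    exact absurd (Finset.mem_univ _) h

lemma cliff_anticomm (i j : Fin n) :
    cliff i * cliff j + cliff j * cliff i
      = if i = j then (2 : ℝ) • (1 : Matrix (Fin n → Bool) (Fin n → Bool) ℝ) else 0 := by
  ext s t
  rw [Matrix.add_apply, cliff_mul_apply, cliff_mul_apply]
  rcases lt_trichotomy i j with h | h | h
  · rw [if_neg (ne_of_lt h), bflip_comm i j s, jwSign_bflip_of_lt h,
      jwSign_bflip_of_not_lt (not_lt.mpr h.le)]
    simp only [Matrix.zero_apply]
    split_ifs <;> ring
  · subst h
    rw [if_pos rfl, bflip_bflip, jwSign_bflip_of_not_lt (lt_irrefl _)]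
    simp only [Matrix.smul_apply, Matrix.one_apply, smul_eq_mul, jwSign_mul_self]
    by_cases hst : s = t
    · subst hst
      simp
      norm_num
    · rw [if_neg hst]
      simp [Ne.symm hst]
  · rw [if_neg (ne_of_gt h), bflip_comm i j s, jwSign_bflip_of_lt h,
      jwSign_bflip_of_not_lt (not_lt.mpr h.le)]
    simp only [Matrix.zero_apply]
    split_ifs <;> ring

lemma cliff_transpose (i : Fin n) : (cliff i)ᵀ = cliff i := by
  ext s t
  simp only [Matrix.transpose_apply, cliff]
  by_cases h : t = bflip i s
  · have h' : s = bflip i t := by rw [h, bflip_bflip]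
    rw [if_pos h, if_pos h', h, jwSign_bflip_of_not_lt (lt_irrefl _)]
  · have h' : ¬ s = bflip i t := fun e => h (by rw [e, bflip_bflip])
    rw [if_neg h, if_neg h']

lemma cliff_diag (i : Fin n) (s : Fin n → Bool) : cliff i s s = 0 := by
  simp only [cliff]
  rw [if_neg (Ne.symm (bflip_ne i s))]

/-- The linear combination `∑ i, w i • cliff i` of Clifford matrices. -/
noncomputable def cliffLin (w : Fin n → ℝ) : Matrix (Fin n → Bool) (Fin n → Bool) ℝ :=
  ∑ i, w i • cliff i

lemma cliffLin_transpose (w : Fin n → ℝ) : (cliffLin w)ᵀ = cliffLin w := by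
  simp only [cliffLin, Matrix.transpose_sum, Matrix.transpose_smul, cliff_transpose]

lemma cliffLin_trace (w : Fin n → ℝ) : (cliffLin w).trace = 0 := by
  simp only [cliffLin, Matrix.trace_sum, Matrix.trace_smul]
  refine Finset.sum_eq_zero fun i _ => ?_
  have : (cliff i).trace = 0 := by
    simp only [Matrix.trace, Matrix.diag_apply, cliff_diag, Finset.sum_const_zero]
  rw [this, smul_zero]

lemma cliffLin_anticomm (u v : Fin n → ℝ) :
    cliffLin u * cliffLin v + cliffLin v * cliffLin u
      = (2 * (u ⬝ᵥ v)) • (1 : Matrix (Fin n → Bool) (Fin n → Bool) ℝ) := by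
  have h1 : cliffLin u * cliffLin v = ∑ i, ∑ j, (u i * v j) • (cliff i * cliff j) := by
    simp only [cliffLin, Finset.sum_mul_sum, smul_mul_smul_comm]
  have h2 : cliffLin v * cliffLin u = ∑ i, ∑ j, (u i * v j) • (cliff j * cliff i) := by
    simp only [cliffLin, Finset.sum_mul_sum, smul_mul_smul_comm]
    rw [Finset.sum_comm]
    refine Finset.sum_congr rfl fun i _ => Finset.sum_congr rfl fun j _ => ?_
    rw [mul_comm]
  rw [h1, h2, ← Finset.sum_add_distrib]
  have h3 : ∀ i, ∑ j, (u i * v j) • (cliff i * cliff j) + ∑ j, (u i * v j) • (cliff j * cliff i)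
      = (2 * (u i * v i)) • (1 : Matrix (Fin n → Bool) (Fin n → Bool) ℝ) := by
    intro i
    rw [← Finset.sum_add_distrib]
    simp only [← smul_add, cliff_anticomm]
    rw [Finset.sum_eq_single i]
    · rw [if_pos rfl, smul_smul]
      congr 1
      ring
    · intro j _ hj
      rw [if_neg (Ne.symm hj), smul_zero]
    · intro h
      exact absurd (Finset.mem_univ i) h
  simp only [h3, dotProduct, ← Finset.sum_smul, Finset.mul_sum]

lemma cliffLin_sq (w : Fin n → ℝ) :
    cliffLin w * cliffLin w = (w ⬝ᵥ w) • (1 : Matrix (Fin n → Bool) (Fin n → Bool) ℝ) := by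
  have h := cliffLin_anticomm w w
  have h2 : (2 : ℝ) • (cliffLin w * cliffLin w)
      = (2 : ℝ) • ((w ⬝ᵥ w) • (1 : Matrix (Fin n → Bool) (Fin n → Bool) ℝ)) := by
    rw [two_smul, h, smul_smul]
  exact smul_right_injective _ (two_ne_zero) h2

lemma cliffLin_trace_mul (u v : Fin n → ℝ) :
    (cliffLin u * cliffLin v).trace = (Fintype.card (Fin n → Bool) : ℝ) * (u ⬝ᵥ v) := by
  have h := congrArg Matrix.trace (cliffLin_anticomm u v)
  rw [Matrix.trace_add, Matrix.trace_mul_comm (cliffLin v) (cliffLin u), Matrix.trace_smul,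
    Matrix.trace_one, smul_eq_mul] at h
  linarith

end Vale.Agent.H94
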