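import Mathlib

/-!
# Two-player one-round games with finite-dimensional entangled strategies

Basic definitions for problem P350 (parallel repetition of entangled games).
-/

namespace Vale.Agent.H94

open Matrix
open scoped Kronecker ComplexOrder

/-- A finite-dimensional entangled strategy for a two-player one-round game with question
sets `X`, `Y` and answer sets `A`, `B`: local dimensions `dA`, `dB`, a unit vector `ψ` in the
tensor product of `ℂ^dA` and `ℂ^dB`, and POVMs `{M x a}_a` on `ℂ^dA` and `{N y b}_b` on `ℂ^dB`. -/
structure EntStrategy (X Y A B : Type) [Fintype A] [Fintype B] where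
  /-- dimension of the first player's Hilbert space -/
  dA : ℕ
  /-- dimension of the second player's Hilbert space -/
  dB : ℕ
  /-- the shared state, a unit vector of the tensor product -/
  ψ : Fin dA × Fin dB → ℂ
  /-- the first player's measurement operators -/
  M : X → A → Matrix (Fin dA) (Fin dA) ℂ
  /-- the second player's measurement operators -/
  N : Y → B → Matrix (Fin dB) (Fin dB) ℂ
  ψ_unit : star ψ ⬝ᵥ ψ = 1
  M_pos : ∀ x a, (M x a).PosSemidef
  M_sum : ∀ x, ∑ a, M x a = 1
  N_pos : ∀ y b, (N y b).PosSemidef
  N_sum : ∀ y, ∑ b, N y b = 1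

variable {X Y A B : Type} [Fintype X] [Fintype Y] [Fintype A] [Fintype B]

/-- The probability `⟨ψ, (M x a ⊗ N y b) ψ⟩` that the strategy answers `(a, b)` on
questions `(x, y)`. -/
noncomputable def EntStrategy.prob (s : EntStrategy X Y A B) (x : X) (y : Y) (a : A) (b : B) : ℝ :=
  (star s.ψ ⬝ᵥ (s.M x a ⊗ₖ s.N y b) *ᵥ s.ψ).re

/-- The winning probability of the strategy `s` in the game with question distribution `μ`
and acceptance predicate `V`. -/
noncomputable def EntStrategy.winProb (μ : X → Y → ℝ) (V : X → Y → A → B → Bool)
    (s : EntStrategy X Y A B) : ℝ :=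
  ∑ x, ∑ y, ∑ a, ∑ b, if V x y a b = true then μ x y * s.prob x y a b else 0

/-- The entangled value of the game `(μ, V)`: the supremum of the winning probability over all
finite dimensions and all entangled strategies. -/
noncomputable def entValue (μ : X → Y → ℝ) (V : X → Y → A → B → Bool) : ℝ :=
  ⨆ s : EntStrategy X Y A B, s.winProb μ V

/-- For a strategy `s` for the `k`-fold parallel repetition of the game `(μ, V)` (questions are
`k` independent samples of `μ`, measurements are arbitrary joint POVMs with outcomes in `A^k`,
`B^k`): the probability that the number of coordinates won is at least `t`. -/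
noncomputable def EntStrategy.probWinsAtLeast (μ : X → Y → ℝ) (V : X → Y → A → B → Bool) {k : ℕ}
    (s : EntStrategy (Fin k → X) (Fin k → Y) (Fin k → A) (Fin k → B)) (t : ℝ) : ℝ :=
  ∑ x : Fin k → X, ∑ y : Fin k → Y, ∑ a : Fin k → A, ∑ b : Fin k → B,
    if t ≤ ((Finset.univ.filter fun i => V (x i) (y i) (a i) (b i) = true).card : ℝ)
    then (∏ i, μ (x i) (y i)) * s.prob x y a b else 0

/-- The acceptance predicate of the XOR game with target parities `c`: binary answers `a`, `b`
are accepted on questions `(x, y)` iff `a xor b = c x y`. -/
def xorPred (c : X → Y → Bool) : X → Y → Bool → Bool → Bool :=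
  fun x y a b => (xor a b == c x y)

end Vale.Agent.H94
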