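import Mathlib

/-!
# Gram certificates for bilinear vector programs and their tensor products
-/

namespace Vale.Agent.H94

open Finset Matrix

section
variable {X Y P N : Type} [Fintype X] [Fintype Y] [Fintype P] [Fintype N]

lemma sum_comm4 (F : X → Y → P → N → ℝ) :
    ∑ x, ∑ y, ∑ p, ∑ n, F x y p n = ∑ p, ∑ n, ∑ x, ∑ y, F x y p n := by
  calc ∑ x, ∑ y, ∑ p, ∑ n, F x y p n
      = ∑ x, ∑ p, ∑ y, ∑ n, F x y p n := by
        refine Finset.sum_congr rfl fun x _ => Finset.sum_comm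
    _ = ∑ p, ∑ x, ∑ y, ∑ n, F x y p n := Finset.sum_comm
    _ = ∑ p, ∑ x, ∑ n, ∑ y, F x y p n := by
        refine Finset.sum_congr rfl fun p _ => Finset.sum_congr rfl fun x _ => Finset.sum_comm
    _ = ∑ p, ∑ n, ∑ x, ∑ y, F x y p n := by
        refine Finset.sum_congr rfl fun p _ => Finset.sum_comm

lemma gram_expand (R : X → P → ℝ) (S : Y → P → ℝ) (α : X → N → ℝ) (β : Y → N → ℝ) :
    ∑ x, ∑ y, (R x ⬝ᵥ S y) * (α x ⬝ᵥ β y)
      = ∑ q : P × N, (∑ x, R x q.1 * α x q.2) * (∑ y, S y q.1 * β y q.2) := by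
  simp only [dotProduct, Fintype.sum_prod_type, Finset.sum_mul_sum]
  rw [sum_comm4]
  refine Finset.sum_congr rfl fun p _ => Finset.sum_congr rfl fun n _ =>
    Finset.sum_congr rfl fun x _ => Finset.sum_congr rfl fun y _ => ?_
  ring

/-- If the families `R`, `S` are orthogonal and `α`, `β` consist of vectors of norm at most one,
then the bilinear expression with coefficients `⟨R x, S y⟩` is bounded by the norms of `R`, `S`. -/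
theorem gram_bound (R : X → P → ℝ) (S : Y → P → ℝ) (α : X → N → ℝ) (β : Y → N → ℝ)
    (hR : ∀ x x', x ≠ x' → R x ⬝ᵥ R x' = 0) (hS : ∀ y y', y ≠ y' → S y ⬝ᵥ S y' = 0)
    (hα : ∀ x, α x ⬝ᵥ α x ≤ 1) (hβ : ∀ y, β y ⬝ᵥ β y ≤ 1) :
    (∑ x, ∑ y, (R x ⬝ᵥ S y) * (α x ⬝ᵥ β y)) ^ 2
      ≤ (∑ x, R x ⬝ᵥ R x) * (∑ y, S y ⬝ᵥ S y) := by
  classical
  have key : ∀ {Z : Type} [Fintype Z] (Q : Z → P → ℝ) (γ : Z → N → ℝ),
      (∀ z z', z ≠ z' → Q z ⬝ᵥ Q z' = 0) → (∀ z, γ z ⬝ᵥ γ z ≤ 1) →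
      ∑ q : P × N, (∑ z, Q z q.1 * γ z q.2) ^ 2 ≤ ∑ z, Q z ⬝ᵥ Q z := by
    intro Z _ Q γ hQ hγ
    have h1 : ∑ q : P × N, (∑ z, Q z q.1 * γ z q.2) ^ 2
        = ∑ z, ∑ z', (Q z ⬝ᵥ Q z') * (γ z ⬝ᵥ γ z') := by
      rw [gram_expand]
      refine Finset.sum_congr rfl fun q _ => ?_
      ring
    rw [h1]
    refine Finset.sum_le_sum fun z _ => ?_
    rw [Finset.sum_eq_single z]
    · have h0 : 0 ≤ Q z ⬝ᵥ Q z := by
        simp only [dotProduct]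
        exact Finset.sum_nonneg fun i _ => mul_self_nonneg _
      calc (Q z ⬝ᵥ Q z) * (γ z ⬝ᵥ γ z) ≤ (Q z ⬝ᵥ Q z) * 1 :=
            mul_le_mul_of_nonneg_left (hγ z) h0
        _ = Q z ⬝ᵥ Q z := mul_one _
    · intro z' _ hz'
      rw [hQ z z' (Ne.symm hz'), zero_mul]
    · intro h
      exact absurd (Finset.mem_univ z) h
  rw [gram_expand]
  calc (∑ q : P × N, (∑ x, R x q.1 * α x q.2) * (∑ y, S y q.1 * β y q.2)) ^ 2
      ≤ (∑ q : P × N, (∑ x, R x q.1 * α x q.2) ^ 2)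
          * (∑ q : P × N, (∑ y, S y q.1 * β y q.2) ^ 2) :=
        Finset.sum_mul_sq_le_sq_mul_sq _ _ _
    _ ≤ (∑ x, R x ⬝ᵥ R x) * (∑ y, S y ⬝ᵥ S y) := by
        apply mul_le_mul (key R α hR hα) (key S β hS hβ)
        · exact Finset.sum_nonneg fun q _ => sq_nonneg _
        · refine Finset.sum_nonneg fun x _ => ?_
          simp only [dotProduct]
          exact Finset.sum_nonneg fun i _ => mul_self_nonneg _

end

section
variable {X Y : Type} [Fintype X] [Fintype Y]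

/-- A Gram certificate of size `ρ` for the coefficient matrix `M`: orthogonal families `r`, `s`
of real vectors with `⟨r x, s y⟩ = M x y` and `(∑ ‖r x‖²) (∑ ‖s y‖²) ≤ ρ²`. -/
def GramCert (M : X → Y → ℝ) (ρ : ℝ) : Prop :=
  ∃ (r : X → (X ⊕ Y) → ℝ) (s : Y → (X ⊕ Y) → ℝ),
    (∀ x x', x ≠ x' → r x ⬝ᵥ r x' = 0) ∧ (∀ y y', y ≠ y' → s y ⬝ᵥ s y' = 0) ∧
    (∀ x y, r x ⬝ᵥ s y = M x y) ∧ (∑ x, r x ⬝ᵥ r x) * (∑ y, s y ⬝ᵥ s y) ≤ ρ ^ 2

lemma dot_prod_tensor {k : ℕ} {Q : Type} [Fintype Q] (f g : Fin k → Q → ℝ) :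
    (fun p : Fin k → Q => ∏ i, f i (p i)) ⬝ᵥ (fun p : Fin k → Q => ∏ i, g i (p i))
      = ∏ i, (f i ⬝ᵥ g i) := by
  classical
  simp only [dotProduct, ← Finset.prod_mul_distrib]
  rw [Finset.prod_univ_sum, Fintype.piFinset_univ]

lemma sum_prod_pi {k : ℕ} {Q : Type} [Fintype Q] (f : Fin k → Q → ℝ) :
    ∑ p : Fin k → Q, ∏ i, f i (p i) = ∏ i, ∑ q, f i q := by
  classical
  rw [Finset.prod_univ_sum, Fintype.piFinset_univ]

/-- Tensor products of Gram certificates bound the value of the product vector program. -/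
theorem prod_cert_bound {k : ℕ} (Mf : Fin k → X → Y → ℝ) (ρ : Fin k → ℝ)
    (hc : ∀ i, GramCert (Mf i) (ρ i)) {N : Type} [Fintype N]
    (α : (Fin k → X) → N → ℝ) (β : (Fin k → Y) → N → ℝ)
    (hα : ∀ x, α x ⬝ᵥ α x ≤ 1) (hβ : ∀ y, β y ⬝ᵥ β y ≤ 1) :
    (∑ x, ∑ y, (∏ i, Mf i (x i) (y i)) * (α x ⬝ᵥ β y)) ^ 2 ≤ ∏ i, ρ i ^ 2 := by
  classical
  choose r s hr hs hrs hρ using hc
  set R : (Fin k → X) → (Fin k → X ⊕ Y) → ℝ := fun x p => ∏ i, r i (x i) (p i) with hR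
  set S : (Fin k → Y) → (Fin k → X ⊕ Y) → ℝ := fun y p => ∏ i, s i (y i) (p i) with hS
  have hRS : ∀ x y, R x ⬝ᵥ S y = ∏ i, Mf i (x i) (y i) := by
    intro x y
    rw [hR, hS]
    show (fun p : Fin k → X ⊕ Y => ∏ i, r i (x i) (p i)) ⬝ᵥ
      (fun p : Fin k → X ⊕ Y => ∏ i, s i (y i) (p i)) = _
    rw [dot_prod_tensor (fun i => r i (x i)) (fun i => s i (y i))]
    exact Finset.prod_congr rfl fun i _ => hrs i (x i) (y i)
  have hRR : ∀ x x', R x ⬝ᵥ R x' = ∏ i, (r i (x i) ⬝ᵥ r i (x' i)) := by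
    intro x x'
    exact dot_prod_tensor (fun i => r i (x i)) (fun i => r i (x' i))
  have hSS : ∀ y y', S y ⬝ᵥ S y' = ∏ i, (s i (y i) ⬝ᵥ s i (y' i)) := by
    intro y y'
    exact dot_prod_tensor (fun i => s i (y i)) (fun i => s i (y' i))
  have hRo : ∀ x x', x ≠ x' → R x ⬝ᵥ R x' = 0 := by
    intro x x' hne
    obtain ⟨i, hi⟩ := Function.ne_iff.mp hne
    rw [hRR]
    exact Finset.prod_eq_zero (Finset.mem_univ i) (hr i _ _ hi)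
  have hSo : ∀ y y', y ≠ y' → S y ⬝ᵥ S y' = 0 := by
    intro y y' hne
    obtain ⟨i, hi⟩ := Function.ne_iff.mp hne
    rw [hSS]
    exact Finset.prod_eq_zero (Finset.mem_univ i) (hs i _ _ hi)
  have hb := gram_bound R S α β hRo hSo hα hβ
  have hsumR : ∑ x, R x ⬝ᵥ R x = ∏ i, ∑ x, r i x ⬝ᵥ r i x := by
    simp_rw [hRR]
    exact sum_prod_pi (fun i x => r i x ⬝ᵥ r i x)
  have hsumS : ∑ y, S y ⬝ᵥ S y = ∏ i, ∑ y, s i y ⬝ᵥ s i y := by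
    simp_rw [hSS]
    exact sum_prod_pi (fun i y => s i y ⬝ᵥ s i y)
  have hnn : ∀ (Z : Type) [Fintype Z] (t : Z → (X ⊕ Y) → ℝ), 0 ≤ ∑ z, t z ⬝ᵥ t z := by
    intro Z _ t
    refine Finset.sum_nonneg fun z _ => ?_
    simp only [dotProduct]
    exact Finset.sum_nonneg fun i _ => mul_self_nonneg _
  calc (∑ x, ∑ y, (∏ i, Mf i (x i) (y i)) * (α x ⬝ᵥ β y)) ^ 2
      = (∑ x, ∑ y, (R x ⬝ᵥ S y) * (α x ⬝ᵥ β y)) ^ 2 := by simp_rw [hRS]
    _ ≤ (∑ x, R x ⬝ᵥ R x) * (∑ y, S y ⬝ᵥ S y) := hb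
    _ = ∏ i, ((∑ x, r i x ⬝ᵥ r i x) * (∑ y, s i y ⬝ᵥ s i y)) := by
        rw [hsumR, hsumS, Finset.prod_mul_distrib]
    _ ≤ ∏ i, ρ i ^ 2 := by
        refine Finset.prod_le_prod (fun i _ => ?_) (fun i _ => hρ i)
        exact mul_nonneg (hnn X (r i)) (hnn Y (s i))

end

end Vale.Agent.H94
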