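import Mathlib
import Vale.Agent.H94.GramBound

/-!
# Strong duality for the bilinear vector program, via Hahn-Banach separation

If `∑ M x y ⟨u x, v y⟩ ≤ ε` for all families of real vectors of norm at most one, then `M`
admits a Gram certificate of size `ε`.
-/

namespace Vale.Agent.H94

open Finset Matrix
open scoped MatrixOrder

variable {X Y : Type} [Fintype X] [Fintype Y]

/-- The value `∑ M x y * G (inl x) (inr y)` of the coefficients `M` on a matrix indexed by
`X ⊕ Y`. -/
def blockVal (M : X → Y → ℝ) (G : Matrix (X ⊕ Y) (X ⊕ Y) ℝ) : ℝ :=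
  ∑ x, ∑ y, M x y * G (Sum.inl x) (Sum.inr y)

lemma blockVal_zero (M : X → Y → ℝ) : blockVal M 0 = 0 := by
  simp [blockVal]

lemma blockVal_add (M : X → Y → ℝ) (G H : Matrix (X ⊕ Y) (X ⊕ Y) ℝ) :
    blockVal M (G + H) = blockVal M G + blockVal M H := by
  simp only [blockVal, Matrix.add_apply, mul_add, Finset.sum_add_distrib]

lemma blockVal_smul (M : X → Y → ℝ) (a : ℝ) (G : Matrix (X ⊕ Y) (X ⊕ Y) ℝ) :
    blockVal M (a • G) = a * blockVal M G := by
  simp only [blockVal, Matrix.smul_apply, smul_eq_mul, Finset.mul_sum]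
  refine Finset.sum_congr rfl fun x _ => Finset.sum_congr rfl fun y _ => ?_
  ring

/-- Every positive semidefinite real matrix is a Gram matrix of vectors in some `ℝ^n`. -/
lemma exists_gram_fin {I : Type} [Fintype I] (G : Matrix I I ℝ) (hG : G.PosSemidef) :
    ∃ (n : ℕ) (w : I → Fin n → ℝ), ∀ i j, w i ⬝ᵥ w j = G i j := by
  classical
  obtain ⟨B, hB⟩ := CStarAlgebra.nonneg_iff_eq_star_mul_self.mp hG.nonneg
  refine ⟨Fintype.card I, fun i l => B ((Fintype.equivFin I).symm l) i, fun i j => ?_⟩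
  rw [hB]
  simp only [dotProduct, Matrix.mul_apply, Matrix.star_apply, star_trivial]
  exact Equiv.sum_comp (Fintype.equivFin I).symm (fun l => B l i * B l j)

/-- Every positive semidefinite real matrix is a Gram matrix of vectors indexed by its own
index type. -/
lemma exists_gram_self {I : Type} [Fintype I] (G : Matrix I I ℝ) (hG : G.PosSemidef) :
    ∃ (w : I → I → ℝ), ∀ i j, w i ⬝ᵥ w j = G i j := by
  classical
  obtain ⟨B, hB⟩ := CStarAlgebra.nonneg_iff_eq_star_mul_self.mp hG.nonneg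
  refine ⟨fun i l => B l i, fun i j => ?_⟩
  rw [hB]
  simp only [dotProduct, Matrix.mul_apply, Matrix.star_apply, star_trivial]

/-- The hypothesis on the vector program bounds the value on every positive semidefinite matrix
with diagonal at most one. -/
lemma blockVal_le_of_vec (M : X → Y → ℝ) (ε : ℝ)
    (hvec : ∀ (n : ℕ) (u : X → Fin n → ℝ) (v : Y → Fin n → ℝ),
      (∀ x, u x ⬝ᵥ u x ≤ 1) → (∀ y, v y ⬝ᵥ v y ≤ 1) → ∑ x, ∑ y, M x y * (u x ⬝ᵥ v y) ≤ ε)
    (G : Matrix (X ⊕ Y) (X ⊕ Y) ℝ) (hG : G.PosSemidef) (hd : ∀ i, G i i ≤ 1) :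
    blockVal M G ≤ ε := by
  obtain ⟨n, w, hw⟩ := exists_gram_fin G hG
  have h := hvec n (fun x => w (Sum.inl x)) (fun y => w (Sum.inr y))
    (fun x => by rw [hw]; exact hd _) (fun y => by rw [hw]; exact hd _)
  simpa only [blockVal, hw] using h

/-- Strong duality: existence of a dual certificate `a`. -/
lemma exists_dual (M : X → Y → ℝ) (ε : ℝ)
    (hvec : ∀ (n : ℕ) (u : X → Fin n → ℝ) (v : Y → Fin n → ℝ),
      (∀ x, u x ⬝ᵥ u x ≤ 1) → (∀ y, v y ⬝ᵥ v y ≤ 1) → ∑ x, ∑ y, M x y * (u x ⬝ᵥ v y) ≤ ε) :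
    ∃ a : X ⊕ Y → ℝ, (∀ i, 0 ≤ a i) ∧ ∑ i, a i ≤ ε ∧
      ∀ G : Matrix (X ⊕ Y) (X ⊕ Y) ℝ, G.PosSemidef → blockVal M G ≤ ∑ i, a i * G i i := by
  classical
  have hε : 0 ≤ ε := by
    have h := hvec 0 (fun _ => 0) (fun _ => 0) (fun x => by simp) (fun y => by simp)
    simpa using h
  set S : Set (ℝ × (X ⊕ Y → ℝ)) :=
    {z | ∃ G : Matrix (X ⊕ Y) (X ⊕ Y) ℝ, G.PosSemidef ∧ z.1 < blockVal M G - ε ∧
      ∀ i, G i i - 1 < z.2 i} with hS
  have hconv : Convex ℝ S := by
    rw [convex_iff_forall_pos]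
    rintro z₁ ⟨G₁, hG₁, h₁, h₁'⟩ z₂ ⟨G₂, hG₂, h₂, h₂'⟩ a b ha hb hab
    refine ⟨a • G₁ + b • G₂, (hG₁.smul ha.le).add (hG₂.smul hb.le), ?_, fun i => ?_⟩
    · rw [blockVal_add, blockVal_smul, blockVal_smul]
      have e1 := mul_lt_mul_of_pos_left h₁ ha
      have e2 := mul_lt_mul_of_pos_left h₂ hb
      have e3 : (a • z₁ + b • z₂).1 = a * z₁.1 + b * z₂.1 := by simp
      rw [e3]
      have e4 : a * blockVal M G₁ + b * blockVal M G₂ - ε
          = a * (blockVal M G₁ - ε) + b * (blockVal M G₂ - ε) := by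
        have : ε = (a + b) * ε := by rw [hab, one_mul]
        nth_rewrite 1 [this]
        ring
      rw [e4]
      exact add_lt_add e1 e2
    · have e1 := mul_lt_mul_of_pos_left (h₁' i) ha
      have e2 := mul_lt_mul_of_pos_left (h₂' i) hb
      have e3 : (a • z₁ + b • z₂).2 i = a * z₁.2 i + b * z₂.2 i := by simp
      rw [e3]
      have e4 : (a • G₁ + b • G₂) i i - 1 = a * (G₁ i i - 1) + b * (G₂ i i - 1) := by
        simp only [Matrix.add_apply, Matrix.smul_apply, smul_eq_mul]
        have : (1 : ℝ) = a + b := hab.symm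
        nth_rewrite 1 [this]
        ring
      rw [e4]
      exact add_lt_add e1 e2
  have hopen : IsOpen S := by
    rw [isOpen_iff_mem_nhds]
    rintro z ⟨G, hG, h1, h2⟩
    have hU : IsOpen {z' : ℝ × (X ⊕ Y → ℝ) | z'.1 < blockVal M G - ε ∧
        ∀ i, G i i - 1 < z'.2 i} := by
      have : {z' : ℝ × (X ⊕ Y → ℝ) | z'.1 < blockVal M G - ε ∧ ∀ i, G i i - 1 < z'.2 i}
          = (Prod.fst ⁻¹' Set.Iio (blockVal M G - ε)) ∩
            ⋂ i, ((fun z' : ℝ × (X ⊕ Y → ℝ) => z'.2 i) ⁻¹' Set.Ioi (G i i - 1)) := by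
        ext z'
        simp
      rw [this]
      exact (isOpen_Iio.preimage continuous_fst).inter
        (isOpen_iInter_of_finite fun i =>
          isOpen_Ioi.preimage ((continuous_apply i).comp continuous_snd))
    exact Filter.mem_of_superset (hU.mem_nhds ⟨h1, h2⟩)
      (fun z' hz' => ⟨G, hG, hz'.1, hz'.2⟩)
  have h0 : (0 : ℝ × (X ⊕ Y → ℝ)) ∉ S := by
    rintro ⟨G, hG, h1, h2⟩
    have hd : ∀ i, G i i ≤ 1 := fun i => by
      have := h2 i
      simp only [Prod.snd_zero, Pi.zero_apply] at this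
      linarith
    have := blockVal_le_of_vec M ε hvec G hG hd
    simp only [Prod.fst_zero] at h1
    linarith
  obtain ⟨f, hf⟩ := geometric_hahn_banach_open_point hconv hopen h0
  rw [map_zero] at hf
  set c₀ : ℝ := f (1, 0) with hc₀
  set c : X ⊕ Y → ℝ := fun i => f (0, Pi.single i 1) with hc
  have hform : ∀ (q : ℝ) (t : X ⊕ Y → ℝ), f (q, t) = q * c₀ + ∑ i, t i * c i := by
    intro q t
    have e1 : ((q, t) : ℝ × (X ⊕ Y → ℝ)) = q • (1, 0) + ∑ i, t i • (0, Pi.single i 1) := by
      refine Prod.ext ?_ ?_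
      · simp [Prod.fst_sum]
      · simp only [Prod.snd_add, Prod.smul_snd, smul_zero, zero_add, Prod.snd_sum]
        funext j
        simp [Finset.sum_apply, Pi.single_apply]
    rw [e1, map_add, map_smul, map_sum]
    simp only [map_smul, smul_eq_mul, hc₀, hc]
  -- test points with G = 0
  have hzero : ∀ (q : ℝ) (t : X ⊕ Y → ℝ), q < -ε → (∀ i, -1 < t i) →
      q * c₀ + ∑ i, t i * c i < 0 := by
    intro q t hq ht
    rw [← hform]
    refine hf (q, t) ⟨0, PosSemidef.zero, ?_, fun i => ?_⟩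
    · simpa [blockVal_zero] using hq
    · simpa using ht i
  have hc₀pos : 0 < c₀ := by
    by_contra hneg
    push Not at hneg
    have h := hzero (-ε - 1) 0 (by linarith) (fun i => by simp)
    simp only [Pi.zero_apply, zero_mul, Finset.sum_const_zero, add_zero] at h
    have : 0 ≤ (-ε - 1) * c₀ := mul_nonneg_of_nonpos_of_nonpos (by linarith) hneg
    linarith
  have hcneg : ∀ i, c i ≤ 0 := by
    intro i
    by_contra hpos
    push Not at hpos
    set L : ℝ := max 0 (((ε + 1) * c₀) / c i) with hL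
    have hL0 : 0 ≤ L := le_max_left _ _
    have hL1 : (ε + 1) * c₀ ≤ L * c i := by
      have : ((ε + 1) * c₀) / c i ≤ L := le_max_right _ _
      calc (ε + 1) * c₀ = ((ε + 1) * c₀) / c i * c i := by
            rw [div_mul_cancel₀ _ hpos.ne']
        _ ≤ L * c i := mul_le_mul_of_nonneg_right this hpos.le
    have h := hzero (-ε - 1) (Pi.single i L) (by linarith) (fun j => by
      by_cases hj : j = i
      · subst hj
        simp only [Pi.single_eq_same]
        linarith
      · simp only [Pi.single_eq_of_ne hj]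
        linarith)
    have hsum : ∑ j, (Pi.single i L : X ⊕ Y → ℝ) j * c j = L * c i := by
      rw [Finset.sum_eq_single i]
      · simp
      · intro j _ hj
        simp [Pi.single_eq_of_ne hj]
      · intro h
        exact absurd (Finset.mem_univ i) h
    rw [hsum] at h
    linarith
  set a : X ⊕ Y → ℝ := fun i => -c i / c₀ with ha
  have ha0 : ∀ i, 0 ≤ a i := fun i => div_nonneg (by linarith [hcneg i]) hc₀pos.le
  have hmain : ∀ G : Matrix (X ⊕ Y) (X ⊕ Y) ℝ, G.PosSemidef →
      blockVal M G - ε - ∑ i, a i * (G i i - 1) ≤ 0 := by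
    intro G hG
    by_contra hpos
    push Not at hpos
    set D : ℝ := blockVal M G - ε - ∑ i, a i * (G i i - 1) with hD
    have hsa : 0 ≤ ∑ i, a i := Finset.sum_nonneg fun i _ => ha0 i
    set η : ℝ := D / (2 * (1 + ∑ i, a i)) with hη
    have hηpos : 0 < η := by positivity
    have h := hf (blockVal M G - ε - η, fun i => G i i - 1 + η)
      ⟨G, hG, by simp only; linarith, fun i => by simp only; linarith⟩
    rw [hform] at h
    have e1 : ∑ i, (G i i - 1 + η) * c i = -c₀ * ∑ i, (G i i - 1 + η) * a i := by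
      rw [Finset.mul_sum]
      refine Finset.sum_congr rfl fun i _ => ?_
      simp only [ha]
      field_simp
    rw [e1] at h
    have e2 : ∑ i, (G i i - 1 + η) * a i = ∑ i, a i * (G i i - 1) + η * ∑ i, a i := by
      rw [Finset.mul_sum, ← Finset.sum_add_distrib]
      refine Finset.sum_congr rfl fun i _ => ?_
      ring
    rw [e2] at h
    have e3 : (blockVal M G - ε - η) * c₀ + -c₀ * (∑ i, a i * (G i i - 1) + η * ∑ i, a i)
        = c₀ * (D - η * (1 + ∑ i, a i)) := by
      rw [hD]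
      ring
    rw [e3] at h
    have e4 : η * (1 + ∑ i, a i) = D / 2 := by
      rw [hη]
      field_simp
    rw [e4] at h
    have : 0 < c₀ * (D - D / 2) := mul_pos hc₀pos (by linarith)
    linarith
  refine ⟨a, ha0, ?_, ?_⟩
  · have h := hmain 0 PosSemidef.zero
    simp only [blockVal_zero, Matrix.zero_apply, zero_sub, mul_neg, mul_one,
      Finset.sum_neg_distrib, sub_neg_eq_add] at h
    linarith
  · intro G hG
    by_contra hpos
    push Not at hpos
    set d : ℝ := blockVal M G - ∑ i, a i * G i i with hd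
    have hdpos : 0 < d := by rw [hd]; linarith
    have hsa : 0 ≤ ∑ i, a i := Finset.sum_nonneg fun i _ => ha0 i
    set τ : ℝ := (ε + 1) / d with hτ
    have hτpos : 0 < τ := by positivity
    have h := hmain (τ • G) (hG.smul hτpos.le)
    rw [blockVal_smul] at h
    have e1 : ∑ i, a i * ((τ • G) i i - 1) = τ * ∑ i, a i * G i i - ∑ i, a i := by
      rw [Finset.mul_sum, ← Finset.sum_sub_distrib]
      refine Finset.sum_congr rfl fun i _ => ?_
      simp only [Matrix.smul_apply, smul_eq_mul]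
      ring
    rw [e1] at h
    have e2 : τ * blockVal M G - ε - (τ * ∑ i, a i * G i i - ∑ i, a i)
        = τ * d - ε + ∑ i, a i := by
      rw [hd]
      ring
    rw [e2] at h
    have e3 : τ * d = ε + 1 := by
      rw [hτ]
      field_simp
    rw [e3] at h
    linarith

/-- Strong duality in Gram form: a bound on the vector program yields a Gram certificate. -/
theorem gramCert_of_vec (M : X → Y → ℝ) (ε : ℝ)
    (hvec : ∀ (n : ℕ) (u : X → Fin n → ℝ) (v : Y → Fin n → ℝ),
      (∀ x, u x ⬝ᵥ u x ≤ 1) → (∀ y, v y ⬝ᵥ v y ≤ 1) → ∑ x, ∑ y, M x y * (u x ⬝ᵥ v y) ≤ ε) :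
    GramCert M ε := by
  classical
  have hε : 0 ≤ ε := by
    have h := hvec 0 (fun _ => 0) (fun _ => 0) (fun x => by simp) (fun y => by simp)
    simpa using h
  obtain ⟨a, ha0, hsum, hdual⟩ := exists_dual M ε hvec
  -- the dual matrix
  set Z : Matrix (X ⊕ Y) (X ⊕ Y) ℝ := Matrix.of fun i j =>
    match i, j with
    | Sum.inl x, Sum.inl x' => if x = x' then 2 * a (Sum.inl x) else 0
    | Sum.inl x, Sum.inr y => - M x y
    | Sum.inr y, Sum.inl x => - M x y
    | Sum.inr y, Sum.inr y' => if y = y' then 2 * a (Sum.inr y) else 0 with hZ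
  have hZherm : Z.IsHermitian := by
    refine Matrix.IsHermitian.ext fun i j => ?_
    rcases i with x | y <;> rcases j with x' | y' <;> simp only [hZ, Matrix.of_apply, star_trivial]
    · by_cases h : x = x'
      · subst h; simp
      · simp [h, Ne.symm h]
    · by_cases h : y = y'
      · subst h; simp
      · simp [h, Ne.symm h]
  have hZquad : ∀ z : X ⊕ Y → ℝ, star z ⬝ᵥ (Z *ᵥ z)
      = 2 * (∑ i, a i * (z i * z i)) - 2 * ∑ x, ∑ y, M x y * (z (Sum.inl x) * z (Sum.inr y)) := by
    intro z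
    simp only [dotProduct, mulVec, star_trivial, Pi.star_apply, Fintype.sum_sum_type, hZ,
      Matrix.of_apply]
    simp only [ite_mul, zero_mul, Finset.sum_ite_eq, Finset.mem_univ, if_true, Finset.mul_sum,
      mul_add, Finset.sum_add_distrib, neg_mul, mul_neg, Finset.sum_neg_distrib]
    have e1 : ∑ y, ∑ x, z (Sum.inr y) * (M x y * z (Sum.inl x))
        = ∑ x, ∑ y, M x y * (z (Sum.inl x) * z (Sum.inr y)) := by
      rw [Finset.sum_comm]
      refine Finset.sum_congr rfl fun x _ => Finset.sum_congr rfl fun y _ => ?_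
      ring
    have e2 : ∑ x, ∑ y, z (Sum.inl x) * (M x y * z (Sum.inr y))
        = ∑ x, ∑ y, M x y * (z (Sum.inl x) * z (Sum.inr y)) := by
      refine Finset.sum_congr rfl fun x _ => Finset.sum_congr rfl fun y _ => ?_
      ring
    rw [e1, e2]
    have e3 : ∑ x, z (Sum.inl x) * (2 * a (Sum.inl x) * z (Sum.inl x))
        = 2 * ∑ x, a (Sum.inl x) * (z (Sum.inl x) * z (Sum.inl x)) := by
      rw [Finset.mul_sum]
      refine Finset.sum_congr rfl fun x _ => ?_
      ring
    have e4 : ∑ y, z (Sum.inr y) * (2 * a (Sum.inr y) * z (Sum.inr y))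
        = 2 * ∑ y, a (Sum.inr y) * (z (Sum.inr y) * z (Sum.inr y)) := by
      rw [Finset.mul_sum]
      refine Finset.sum_congr rfl fun y _ => ?_
      ring
    rw [e3, e4]
    simp only [← Finset.mul_sum]
    ring
  have hZpsd : Z.PosSemidef := by
    refine PosSemidef.of_dotProduct_mulVec_nonneg hZherm fun z => ?_
    rw [hZquad]
    have hG : (vecMulVec z (star z)).PosSemidef := posSemidef_vecMulVec_self_star z
    have h := hdual _ hG
    simp only [blockVal, vecMulVec_apply, star_trivial] at h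
    linarith
  obtain ⟨w, hw⟩ := exists_gram_self Z hZpsd
  refine ⟨fun x => w (Sum.inl x), fun y => -w (Sum.inr y), ?_, ?_, ?_, ?_⟩
  · intro x x' hne
    rw [hw]
    simp [hZ, hne]
  · intro y y' hne
    rw [neg_dotProduct_neg, hw]
    simp [hZ, hne]
  · intro x y
    rw [dotProduct_neg, hw]
    simp [hZ]
  · have e1 : ∑ x, w (Sum.inl x) ⬝ᵥ w (Sum.inl x) = 2 * ∑ x, a (Sum.inl x) := by
      rw [Finset.mul_sum]
      refine Finset.sum_congr rfl fun x _ => ?_
      rw [hw]
      simp [hZ]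
    have e2 : ∑ y, -w (Sum.inr y) ⬝ᵥ -w (Sum.inr y) = 2 * ∑ y, a (Sum.inr y) := by
      rw [Finset.mul_sum]
      refine Finset.sum_congr rfl fun y _ => ?_
      rw [neg_dotProduct_neg, hw]
      simp [hZ]
    rw [e1, e2]
    have hA : 0 ≤ ∑ x, a (Sum.inl x) := Finset.sum_nonneg fun x _ => ha0 _
    have hB : 0 ≤ ∑ y, a (Sum.inr y) := Finset.sum_nonneg fun y _ => ha0 _
    have hAB : ∑ x, a (Sum.inl x) + ∑ y, a (Sum.inr y) ≤ ε := by
      rw [← Fintype.sum_sum_type]
      exact hsum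
    nlinarith [sq_nonneg (∑ x, a (Sum.inl x) - ∑ y, a (Sum.inr y))]

end Vale.Agent.H94
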