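import Mathlib

/-!
# Strict positivity of the binary relative entropy

For `0 < v < α < 1` the number `α log (α / v) + (1 - α) log ((1 - α) / (1 - v))` is positive
(strict Gibbs inequality), from `log x < x - 1` for `x ≠ 1`.
-/

namespace Vale.Agent.H94

theorem binary_kl_pos {v α : ℝ} (hv0 : 0 < v) (hva : v < α) (hα1 : α < 1) :
    0 < α * Real.log (α / v) + (1 - α) * Real.log ((1 - α) / (1 - v)) := by
  have hα0 : 0 < α := hv0.trans hva
  have h1α : 0 < 1 - α := by linarith
  have h1v : 0 < 1 - v := by linarith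
  have e1 : Real.log (α / v) = -Real.log (v / α) := by
    rw [← Real.log_inv, inv_div]
  have e2 : Real.log ((1 - α) / (1 - v)) = -Real.log ((1 - v) / (1 - α)) := by
    rw [← Real.log_inv, inv_div]
  have n1 : v / α ≠ 1 := by
    intro h
    rw [div_eq_one_iff_eq hα0.ne'] at h
    exact hva.ne h
  have n2 : (1 - v) / (1 - α) ≠ 1 := by
    intro h
    rw [div_eq_one_iff_eq h1α.ne'] at h
    linarith
  have l1 : Real.log (v / α) < v / α - 1 :=
    Real.log_lt_sub_one_of_pos (div_pos hv0 hα0) n1
  have l2 : Real.log ((1 - v) / (1 - α)) < (1 - v) / (1 - α) - 1 :=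
    Real.log_lt_sub_one_of_pos (div_pos h1v h1α) n2
  have m1 : α * Real.log (v / α) < α * (v / α - 1) := mul_lt_mul_of_pos_left l1 hα0
  have m2 : (1 - α) * Real.log ((1 - v) / (1 - α)) < (1 - α) * ((1 - v) / (1 - α) - 1) :=
    mul_lt_mul_of_pos_left l2 h1α
  have s1 : α * (v / α - 1) = v - α := by
    field_simp
  have s2 : (1 - α) * ((1 - v) / (1 - α) - 1) = α - v := by
    field_simp
    ring
  rw [e1, e2]
  linarith

end Vale.Agent.H94
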