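import Mathlib
import Vale.Agent.H40.P171.LP56

/-!
# P171: the Lebowitz-Penrose endgame in derivative form

The abstract real-analysis step from the exponentiated claim `hclaim` of the LP layer to the
conclusion of `lp_deriv`: if `f` has derivative `D` at `μ'`, then for every `ε > 0` there are
`σ > 0` (as small as wanted) and `n1` with
`G n σ ≤ f μ' + σ * (V / 2 * D ^ 2 + ε)` for all `n ≥ n1`.

The hypotheses are those of `Vale.Agent.H40.P171.not_differentiable_of_LP` without the two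
one-sided inequalities from the variational principle.  The consumer instantiates
`f m = F(m, t)`, `G n σ = F(μ', t + σ e_n)`, `h n m = F(m, t''_n)`, `g m = F(m, 2 t)`,
`l n = rho_n`, `τ n = ∑_{k ≥ n} t_k`, `δ n = 1 / π_n - 1`, `V = 21`.
The proof applies `per_n` of that file with `c = (G n σ - f μ') / σ`.
-/

namespace Vale.Agent.H94

open Filter Topology

/-- The choice of the small parameters, with an upper bound `σ0` for `σ`. -/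
theorem lpderiv_choose_sigma (V C1 K0 w0 σ0 : ℝ) (hV : 0 < V) (hC1 : 0 ≤ C1) (hK0 : 0 ≤ K0)
    (hw0 : 0 < w0) (hσ0 : 0 < σ0) :
    ∃ σ d1 : ℝ, 0 < σ ∧ σ ≤ σ0 ∧ 0 ≤ d1 ∧ 128 * C1 * (V * σ) ≤ 1 ∧
      d1 ^ 2 = 8 * (K0 + 1) / (V * σ) ∧ 2 * (V * σ) * d1 ≤ w0 := by
  obtain ⟨σ, hσdef⟩ : ∃ σ, σ =
      min (min (1 / (128 * (C1 + 1) * V)) (w0 ^ 2 / (32 * (K0 + 1) * V))) σ0 := ⟨_, rfl⟩
  have hσ : 0 < σ := by
    rw [hσdef]
    exact lt_min (lt_min (by positivity) (by positivity)) hσ0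
  have hσle : σ ≤ σ0 := by
    rw [hσdef]
    exact min_le_right _ _
  have hσ1 : 128 * C1 * (V * σ) ≤ 1 := by
    have h1 : σ ≤ 1 / (128 * (C1 + 1) * V) := by
      rw [hσdef]
      exact (min_le_left _ _).trans (min_le_left _ _)
    rw [le_div_iff₀ (by positivity)] at h1
    nlinarith
  have hσ2 : 32 * (K0 + 1) * V * σ ≤ w0 ^ 2 := by
    have h1 : σ ≤ w0 ^ 2 / (32 * (K0 + 1) * V) := by
      rw [hσdef]
      exact (min_le_left _ _).trans (min_le_right _ _)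
    rw [le_div_iff₀ (by positivity)] at h1
    linarith
  have hVσ : 0 < V * σ := mul_pos hV hσ
  refine ⟨σ, Real.sqrt (8 * (K0 + 1) / (V * σ)), hσ, hσle, Real.sqrt_nonneg _, hσ1,
    Real.sq_sqrt (by positivity), ?_⟩
  have hsq : (2 * (V * σ) * Real.sqrt (8 * (K0 + 1) / (V * σ))) ^ 2 = 32 * (K0 + 1) * V * σ := by
    rw [mul_pow, Real.sq_sqrt (by positivity)]
    field_simp
    ring
  have h0 : 0 ≤ 2 * (V * σ) * Real.sqrt (8 * (K0 + 1) / (V * σ)) := by positivity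
  exact (pow_le_pow_iff_left₀ h0 hw0.le two_ne_zero).mp (by rw [hsq]; exact hσ2)

/-- The choice of the slope: `γ = |D| + ε1` with `V / 2 * γ ^ 2 ≤ V / 2 * D ^ 2 + ε / 2`. -/
theorem lpderiv_choose_slope (D V ε : ℝ) (hV : 0 < V) (hε : 0 < ε) :
    ∃ ε1 : ℝ, 0 < ε1 ∧ V / 2 * (|D| + ε1) ^ 2 ≤ V / 2 * D ^ 2 + ε / 2 := by
  have hpos : 0 < V * (2 * |D| + 1) := by positivity
  obtain ⟨e, hedef⟩ : ∃ e, e = min 1 (ε / (V * (2 * |D| + 1))) := ⟨_, rfl⟩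
  have he0 : 0 < e := by
    rw [hedef]
    exact lt_min one_pos (div_pos hε hpos)
  have he1 : e ≤ 1 := by
    rw [hedef]
    exact min_le_left _ _
  have he2 : e * (V * (2 * |D| + 1)) ≤ ε := by
    have : e ≤ ε / (V * (2 * |D| + 1)) := by
      rw [hedef]
      exact min_le_right _ _
    rwa [le_div_iff₀ hpos] at this
  refine ⟨e, he0, ?_⟩
  have hD2 : |D| ^ 2 = D ^ 2 := sq_abs D
  have hee : e * e ≤ e * 1 := mul_le_mul_of_nonneg_left he1 he0.le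
  have hexp : V / 2 * (|D| + e) ^ 2 = V / 2 * D ^ 2 + V / 2 * (2 * |D| * e + e * e) := by
    rw [← hD2]
    ring
  rw [hexp]
  have hb : V / 2 * (2 * |D| * e + e * e) ≤ V / 2 * (2 * |D| * e + e * 1) :=
    mul_le_mul_of_nonneg_left (by linarith) (by positivity)
  have hc : V / 2 * (2 * |D| * e + e * 1) = e * (V * (2 * |D| + 1)) / 2 := by ring
  linarith

/-- The Lebowitz-Penrose endgame in derivative form. -/
theorem lp_deriv_abstract (f : ℝ → ℝ) (μ' D V : ℝ) (hV : 0 < V) (hD : HasDerivAt f D μ')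
    (n0 : ℕ) (l τ δ : ℕ → ℝ) (hl1 : ∀ n, n0 ≤ n → 1 ≤ l n) (hl : Tendsto l atTop atTop)
    (hτ0 : ∀ n, n0 ≤ n → 0 ≤ τ n) (hτ : Tendsto τ atTop (𝓝 0))
    (hδ0 : ∀ n, n0 ≤ n → 0 ≤ δ n) (hδ : Tendsto δ atTop (𝓝 0))
    (h G : ℕ → ℝ → ℝ) (g : ℝ → ℝ) (C0 C1 : ℝ)
    (hh0 : ∀ n, n0 ≤ n → 0 ≤ h n μ')
    (hquad : ∀ n m, n0 ≤ n → h n m ≤ C0 + C1 * m ^ 2)
    (hcmp : ∀ n m, n0 ≤ n → h n m ≤ f m + δ n * g m)
    (hg : ∀ K : ℝ, ∃ M : ℝ, ∀ m, |m| ≤ K → g m ≤ M)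
    (σ0 : ℝ) (hσ0 : 0 < σ0)
    (hclaim : ∀ n σ, n0 ≤ n → 0 < σ → σ ≤ σ0 →
      ENNReal.ofReal (Real.exp (l n ^ 3 * G n σ)) ≤
        ∑' j : ℕ, ENNReal.ofReal (Real.exp (-(V / 2 * (σ + τ n)) * (j : ℝ) ^ 2 / l n ^ 3
          + (l n + 1) ^ 3 * h n (μ' + 2 * (V / 2 * (σ + τ n)) * (j : ℝ) / l n ^ 3))))
    (ε : ℝ) (hε : 0 < ε) :
    ∃ σ : ℝ, 0 < σ ∧ σ ≤ σ0 ∧ ∃ n1 : ℕ, ∀ n, n1 ≤ n →
      G n σ ≤ f μ' + σ * (V / 2 * D ^ 2 + ε) := by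
  obtain ⟨ε1, hε1, hε1b⟩ := lpderiv_choose_slope D V ε hV hε
  obtain ⟨γ, hγ⟩ : ∃ γ, γ = |D| + ε1 := ⟨_, rfl⟩
  rw [← hγ] at hε1b
  have hγpos : 0 < γ := by
    rw [hγ]
    positivity
  obtain ⟨w1, hw1, hball⟩ := Vale.Agent.H40.P171.deriv_expansion f μ' D hD ε1 hε1
  have hw0 : (0 : ℝ) < w1 / 2 := by linarith
  have hfw : ∀ u, 0 ≤ u → u ≤ w1 / 2 → f (μ' + u) ≤ f μ' + γ * u := by
    intro u hu0 hu1
    have h1 := hball u (by rw [abs_of_nonneg hu0]; linarith)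
    rw [abs_of_nonneg hu0] at h1
    have h3 := (abs_le.mp h1).2
    have h4 : u * D ≤ u * |D| := mul_le_mul_of_nonneg_left (le_abs_self D) hu0
    rw [hγ]
    nlinarith
  obtain ⟨M0, hM0⟩ := hg (|μ'| + w1 / 2)
  have hM : 0 ≤ max M0 0 := le_max_right _ _
  have hgM : ∀ u, 0 ≤ u → u ≤ w1 / 2 → g (μ' + u) ≤ max M0 0 := by
    intro u hu0 hu1
    refine (hM0 _ ?_).trans (le_max_left _ _)
    calc |μ' + u| ≤ |μ'| + |u| := abs_add_le _ _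
      _ ≤ |μ'| + w1 / 2 := by rw [abs_of_nonneg hu0]; linarith
  have hK0 : 0 ≤ 8 * |C0| + 16 * |C1| * μ' ^ 2 := by positivity
  obtain ⟨σ, d1, hσ, hσle, hd1, hσ1, hd1sq, hd1w⟩ :=
    lpderiv_choose_sigma V |C1| (8 * |C0| + 16 * |C1| * μ' ^ 2) (w1 / 2) σ0 hV (abs_nonneg _)
      hK0 hw0 hσ0
  refine ⟨σ, hσ, hσle, ?_⟩
  have hev : ∀ᶠ n in atTop, G n σ - f μ' - V / 2 * γ ^ 2 * σ ≤
      V / 2 * γ ^ 2 * τ n + max M0 0 * δ n
      + (7 * (|f μ'| + γ * (w1 / 2) + max M0 0) + V * σ * d1 / 4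
        + 2 * Real.sqrt (1 + 8 / (V * σ))) * (l n)⁻¹ := by
    have e1 : ∀ᶠ n in atTop, τ n < σ := (tendsto_order.1 hτ).2 σ hσ
    have e2 : ∀ᶠ n in atTop, δ n < 1 := (tendsto_order.1 hδ).2 1 one_pos
    filter_upwards [e1, e2, eventually_ge_atTop n0] with n hn1 hn2 hn
    have hp := Vale.Agent.H40.P171.per_n f μ' ((G n σ - f μ') / σ) V σ (τ n) (δ n) (l n) γ
      (w1 / 2) (max M0 0) _ |C0| |C1| _ d1 (G n σ) (h n) g
      hV hσ (hτ0 n hn) hn1.le (hδ0 n hn) hn2.le (hl1 n hn) hγpos.le hw0.le hM rfl (abs_nonneg _)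
      (abs_nonneg _) rfl hσ1 hd1 hd1sq hd1w hfw hgM (hh0 n hn)
      (fun m => (hquad n m hn).trans (add_le_add (le_abs_self C0)
        (mul_le_mul_of_nonneg_right (le_abs_self C1) (sq_nonneg m))))
      (fun m => hcmp n m hn) (hclaim n σ hn hσ hσle)
      (by rw [div_mul_cancel₀ _ hσ.ne']; linarith)
    have e : ((G n σ - f μ') / σ - V / 2 * γ ^ 2) * σ = G n σ - f μ' - V / 2 * γ ^ 2 * σ := by
      rw [sub_mul, div_mul_cancel₀ _ hσ.ne']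
    rw [e] at hp
    exact hp
  have hlim : Tendsto (fun n => V / 2 * γ ^ 2 * τ n + max M0 0 * δ n
      + (7 * (|f μ'| + γ * (w1 / 2) + max M0 0) + V * σ * d1 / 4
        + 2 * Real.sqrt (1 + 8 / (V * σ))) * (l n)⁻¹) atTop (𝓝 0) := by
    have h1 := (hτ.const_mul (V / 2 * γ ^ 2)).add (hδ.const_mul (max M0 0))
    have h2 := (tendsto_inv_atTop_zero.comp hl).const_mul
      (7 * (|f μ'| + γ * (w1 / 2) + max M0 0) + V * σ * d1 / 4
        + 2 * Real.sqrt (1 + 8 / (V * σ)))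
    have h3 := h1.add h2
    simpa using h3
  have hsmall : ∀ᶠ n in atTop, V / 2 * γ ^ 2 * τ n + max M0 0 * δ n
      + (7 * (|f μ'| + γ * (w1 / 2) + max M0 0) + V * σ * d1 / 4
        + 2 * Real.sqrt (1 + 8 / (V * σ))) * (l n)⁻¹ < σ * (ε / 2) :=
    (tendsto_order.1 hlim).2 _ (by positivity)
  obtain ⟨n1, hn1⟩ := eventually_atTop.1 (hev.and hsmall)
  refine ⟨n1, fun n hn => ?_⟩
  obtain ⟨ha, hb⟩ := hn1 n hn
  have hc : σ * (V / 2 * γ ^ 2) ≤ σ * (V / 2 * D ^ 2 + ε / 2) :=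
    mul_le_mul_of_nonneg_left hε1b hσ.le
  nlinarith

end Vale.Agent.H94
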