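import Vale.Agent.H94.PowerWins
import Vale.Agent.H94.BinomMode

/-!
# Optimality of the relative-entropy rate: product strategies

For every game with entangled value `v`, `0 < v < a < 1`, and every `c` larger than the binary
relative entropy `D(a ‖ v)`, product strategies win at least `a k` of `k` coordinates with
probability at least `exp (-c k)` for all large `k`.
-/

namespace Vale.Agent.H94

open Matrix Finset

/-- `k + 1 ≤ exp (η k)` once `k > 2 / η²`. -/
lemma succ_le_exp_mul {η k : ℝ} (hη : 0 < η) (hk : 2 / η ^ 2 < k) : k + 1 ≤ Real.exp (η * k) := by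
  have hk0 : 0 < k := lt_trans (by positivity) hk
  have hηk : 0 ≤ η * k := by positivity
  have hq := Real.quadratic_le_exp_of_nonneg hηk
  have h2 : 2 < η ^ 2 * k := by
    rw [div_lt_iff₀ (by positivity)] at hk
    linarith
  have h3 : k ≤ (η * k) ^ 2 / 2 := by
    have : (η * k) ^ 2 = (η ^ 2 * k) * k := by ring
    rw [this]
    nlinarith
  linarith

/-- Product strategies built on a single-copy strategy with winning probability `p₀`: for every
`a` in `(0, 1)` and every `c` above the relative entropy `D(a ‖ p₀)`, the probability of at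
least `a k` wins is at least `exp (-c k)` for all large `k`. -/
theorem power_threshold_lower {X Y A B : Type} [Fintype X] [Fintype Y] [Fintype A] [Fintype B]
    (μ : X → Y → ℝ) (hμ0 : ∀ x y, 0 ≤ μ x y) (hμ1 : ∑ x, ∑ y, μ x y = 1)
    (V : X → Y → A → B → Bool) (s₀ : EntStrategy X Y A B)
    (hp0 : 0 < s₀.winProb μ V) (hp1 : s₀.winProb μ V < 1) (a : ℝ) (ha0 : 0 < a) (ha1 : a < 1)
    (c : ℝ)
    (hc : a * Real.log (a / s₀.winProb μ V)
        + (1 - a) * Real.log ((1 - a) / (1 - s₀.winProb μ V)) < c) :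
    ∃ K : ℕ, ∀ k : ℕ, K ≤ k →
      ∃ s : EntStrategy (Fin k → X) (Fin k → Y) (Fin k → A) (Fin k → B),
        Real.exp (-(c * k)) ≤ s.probWinsAtLeast μ V (a * k) := by
  classical
  set p₀ : ℝ := s₀.winProb μ V with hp₀
  have h1a : 0 < 1 - a := by linarith
  have h1p : 0 < 1 - p₀ := by linarith
  set F : ℝ → ℝ := fun x => x * Real.log (x / p₀) + (1 - x) * Real.log ((1 - x) / (1 - p₀))
    with hF
  have hFa : F a < c := hc
  set η : ℝ := (c - F a) / 2 with hη
  have hη0 : 0 < η := by rw [hη]; linarith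
  have hFc : ContinuousAt F a := by
    have c1 : ContinuousAt (fun x : ℝ => Real.log (x / p₀)) a :=
      (continuousAt_id.div_const p₀).log (div_pos ha0 hp0).ne'
    have c2 : ContinuousAt (fun x : ℝ => Real.log ((1 - x) / (1 - p₀))) a :=
      ((continuousAt_const.sub continuousAt_id).div_const (1 - p₀)).log (div_pos h1a h1p).ne'
    exact (continuousAt_id.mul c1).add ((continuousAt_const.sub continuousAt_id).mul c2)
  have hFa' : F a < c - η := by rw [hη]; linarith
  obtain ⟨ε₂, hε₂, hball₂⟩ := Metric.eventually_nhds_iff.mp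
    (hFc.eventually_lt continuousAt_const hFa')
  refine ⟨⌈max (max (1 / ε₂) (1 / (1 - a))) (2 / η ^ 2)⌉₊ + 1, fun k hk => ?_⟩
  have hkK : max (max (1 / ε₂) (1 / (1 - a))) (2 / η ^ 2) < k := by
    have h1 := Nat.le_ceil (max (max (1 / ε₂) (1 / (1 - a))) (2 / η ^ 2))
    have h2 : ((⌈max (max (1 / ε₂) (1 / (1 - a))) (2 / η ^ 2)⌉₊ + 1 : ℕ) : ℝ) ≤ k := by
      exact_mod_cast hk
    push_cast at h2
    linarith
  have hk1 : 1 / ε₂ < k := lt_of_le_of_lt (le_trans (le_max_left _ _) (le_max_left _ _)) hkK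
  have hk2 : 1 / (1 - a) < k := lt_of_le_of_lt (le_trans (le_max_right _ _) (le_max_left _ _)) hkK
  have hk3 : 2 / η ^ 2 < k := lt_of_le_of_lt (le_max_right _ _) hkK
  have hkpos : (0 : ℝ) < k := lt_trans (by positivity) hk1
  set j : ℕ := ⌈a * (k : ℝ)⌉₊ with hj
  have hak0 : 0 < a * (k : ℝ) := mul_pos ha0 hkpos
  have hj_ge : a * (k : ℝ) ≤ j := Nat.le_ceil _
  have hj_lt : (j : ℝ) < a * (k : ℝ) + 1 := Nat.ceil_lt_add_one hak0.le
  have hj0 : 0 < j := Nat.ceil_pos.mpr hak0
  have hjk : j < k := by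
    have h1 : 1 < (1 - a) * (k : ℝ) := by
      rw [div_lt_iff₀ h1a] at hk2
      linarith
    have : (j : ℝ) < k := by linarith
    exact_mod_cast this
  have hxa : a ≤ (j : ℝ) / k := by
    rw [le_div_iff₀ hkpos]
    exact hj_ge
  have hxa2 : (j : ℝ) / k < a + 1 / k := by
    rw [div_lt_iff₀ hkpos, add_mul, one_div, inv_mul_cancel₀ hkpos.ne']
    exact hj_lt
  have hk1' : 1 / (k : ℝ) < ε₂ := by
    rw [div_lt_iff₀ hkpos]
    rw [div_lt_iff₀ hε₂] at hk1
    linarith
  have hFx : F ((j : ℝ) / k) < c - η := by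
    apply hball₂
    rw [Real.dist_eq, abs_lt]
    constructor <;> linarith
  obtain ⟨s, hs⟩ := exists_power_strategy s₀ k
  refine ⟨s, ?_⟩
  have hwin := power_wins_ge μ hμ0 hμ1 V s₀ j s hs (a * k) hj_ge
  have hbin := binom_term_ge_exp k j hj0 hjk p₀ hp0 hp1
  have hbin' : Real.exp (-((k : ℝ) * F ((j : ℝ) / k))) / ((k : ℝ) + 1)
      ≤ (k.choose j : ℝ) * p₀ ^ j * (1 - p₀) ^ (k - j) := by
    simp only [hF]
    exact hbin
  refine le_trans ?_ (le_trans hbin' hwin)
  have hk1pos : (0 : ℝ) < (k : ℝ) + 1 := by linarith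
  rw [le_div_iff₀ hk1pos]
  have hexp : (k : ℝ) + 1 ≤ Real.exp (η * k) := succ_le_exp_mul hη0 hk3
  calc Real.exp (-(c * k)) * ((k : ℝ) + 1)
      ≤ Real.exp (-(c * k)) * Real.exp (η * k) :=
        mul_le_mul_of_nonneg_left hexp (Real.exp_pos _).le
    _ = Real.exp (-(c * k) + η * k) := by rw [← Real.exp_add]
    _ ≤ Real.exp (-((k : ℝ) * F ((j : ℝ) / k))) := by
        apply Real.exp_le_exp.mpr
        have : (k : ℝ) * F ((j : ℝ) / k) ≤ (k : ℝ) * (c - η) :=
          mul_le_mul_of_nonneg_left hFx.le hkpos.le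
        linarith

/-- **Optimality of the relative-entropy rate.** For every game with entangled value `v`,
`0 < v < a < 1`, and every `c > D(a ‖ v)`: for all large `k` some strategy for `k` copies wins
at least `a k` coordinates with probability at least `exp (-c k)`. -/
theorem threshold_lower {X Y A B : Type} [Fintype X] [Fintype Y] [Fintype A] [Fintype B]
    (μ : X → Y → ℝ) (hμ0 : ∀ x y, 0 ≤ μ x y) (hμ1 : ∑ x, ∑ y, μ x y = 1)
    (V : X → Y → A → B → Bool) (s₁ : EntStrategy X Y A B) (a : ℝ)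
    (hv0 : 0 < entValue μ V) (hva : entValue μ V < a) (ha1 : a < 1) (c : ℝ)
    (hc : a * Real.log (a / entValue μ V)
        + (1 - a) * Real.log ((1 - a) / (1 - entValue μ V)) < c) :
    ∃ K : ℕ, ∀ k : ℕ, K ≤ k →
      ∃ s : EntStrategy (Fin k → X) (Fin k → Y) (Fin k → A) (Fin k → B),
        Real.exp (-(c * k)) ≤ s.probWinsAtLeast μ V (a * k) := by
  classical
  have hne : Nonempty (EntStrategy X Y A B) := ⟨s₁⟩
  set v : ℝ := entValue μ V with hv
  have ha0 : 0 < a := lt_trans hv0 hva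
  have hv1 : v < 1 := lt_trans hva ha1
  have h1a : 0 < 1 - a := by linarith
  have h1v : 0 < 1 - v := by linarith
  set G : ℝ → ℝ := fun p => a * Real.log (a / p) + (1 - a) * Real.log ((1 - a) / (1 - p)) with hG
  have hGc : ContinuousAt G v := by
    have c1 : ContinuousAt (fun p : ℝ => Real.log (a / p)) v :=
      (continuousAt_const.div continuousAt_id hv0.ne').log (div_pos ha0 hv0).ne'
    have c2 : ContinuousAt (fun p : ℝ => Real.log ((1 - a) / (1 - p))) v :=
      (continuousAt_const.div (continuousAt_const.sub continuousAt_id) h1v.ne').log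
        (div_pos h1a h1v).ne'
    exact (continuousAt_const.mul c1).add (continuousAt_const.mul c2)
  have hGv : G v < c := hc
  obtain ⟨ε₁, hε₁, hball₁⟩ := Metric.eventually_nhds_iff.mp
    (hGc.eventually_lt continuousAt_const hGv)
  set p₁ : ℝ := max (v - ε₁ / 2) (v / 2) with hp₁
  have hp₁v : p₁ < v := by
    rw [hp₁]
    exact max_lt (by linarith) (by linarith)
  obtain ⟨s₀, hs₀⟩ := exists_lt_of_lt_ciSup (f := fun s : EntStrategy X Y A B => s.winProb μ V)
    (show p₁ < ⨆ s : EntStrategy X Y A B, s.winProb μ V from hp₁v)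
  have hp₀v : s₀.winProb μ V ≤ v := winProb_le_entValue μ hμ0 hμ1 V s₀
  have hp₀0 : 0 < s₀.winProb μ V := by
    have : v / 2 ≤ p₁ := le_max_right _ _
    linarith
  have hp₀1 : s₀.winProb μ V < 1 := lt_of_le_of_lt hp₀v hv1
  have hGp : G (s₀.winProb μ V) < c := by
    apply hball₁
    rw [Real.dist_eq, abs_lt]
    have : v - ε₁ / 2 ≤ p₁ := le_max_left _ _
    constructor <;> linarith
  exact power_threshold_lower μ hμ0 hμ1 V s₀ hp₀0 hp₀1 a ha0 ha1 c hGp

end Vale.Agent.H94
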