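import Vale.Agent.H94.ParityMain
import Vale.Agent.H94.ChernoffKL
import Vale.Agent.H94.LowerRate

/-!
# The exact exponential rate of the threshold probability for entangled parity (XOR) games

For a game `G` with binary answers whose acceptance depends only on the questions and the parity
of the two answers, with entangled value `v`, and for `v < α < 1`: the largest probability with
which entangled players win at least `α k` of `k` parallel copies decays exactly like
`exp (-k D(α ‖ v))`, where `D(α ‖ v) = α log (α / v) + (1 - α) log ((1 - α) / (1 - v))` is the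
binary relative entropy.
-/

namespace Vale.Agent.H94

open Matrix Finset

variable {X Y : Type} [Fintype X] [Fintype Y]

/-- Upper bound with the relative-entropy rate. -/
theorem parity_threshold_kl (μ : X → Y → ℝ) (hμ0 : ∀ x y, 0 ≤ μ x y)
    (hμ1 : ∑ x, ∑ y, μ x y = 1) (f : X → Y → Bool → Bool) (α : ℝ)
    (hv0 : 0 < entValue μ (fun x y a b => f x y (xor a b)))
    (hva : entValue μ (fun x y a b => f x y (xor a b)) < α) (hα1 : α < 1) (k : ℕ)
    (s : EntStrategy (Fin k → X) (Fin k → Y) (Fin k → Bool) (Fin k → Bool)) :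
    s.probWinsAtLeast μ (fun x y a b => f x y (xor a b)) (α * k)
      ≤ Real.exp (-((α * Real.log (α / entValue μ (fun x y a b => f x y (xor a b)))
          + (1 - α) * Real.log ((1 - α) / (1 - entValue μ (fun x y a b => f x y (xor a b)))))
          * k)) := by
  classical
  have hch := chernoff_kl_of_win_mgf
    (Ω := (Fin k → X) × (Fin k → Y) × (Fin k → Bool) × (Fin k → Bool))
    (fun ω => (∏ i, μ (ω.1 i) (ω.2.1 i)) * s.prob ω.1 ω.2.1 ω.2.2.1 ω.2.2.2)
    (fun ω => mul_nonneg (Finset.prod_nonneg fun i _ => hμ0 _ _) (s.prob_nonneg _ _ _ _))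
    (fun i ω => f (ω.1 i) (ω.2.1 i) (xor (ω.2.2.1 i) (ω.2.2.2 i)))
    (entValue μ (fun x y a b => f x y (xor a b))) hv0
    (fun l hl => by
      have h := parity_mgf_bound μ hμ0 hμ1 f s l hl
      simpa only [Fintype.sum_prod_type] using h)
    α hva hα1
  unfold EntStrategy.probWinsAtLeast
  simpa only [Fintype.sum_prod_type] using hch

/-- **Exact exponential rate for parity (XOR) games**: the relative-entropy upper bound for every
strategy, and its optimality. -/
theorem parity_exact_rate (μ : X → Y → ℝ) (hμ0 : ∀ x y, 0 ≤ μ x y)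
    (hμ1 : ∑ x, ∑ y, μ x y = 1) (f : X → Y → Bool → Bool) (α : ℝ)
    (hv0 : 0 < entValue μ (fun x y a b => f x y (xor a b)))
    (hva : entValue μ (fun x y a b => f x y (xor a b)) < α) (hα1 : α < 1) :
    (∀ (k : ℕ) (s : EntStrategy (Fin k → X) (Fin k → Y) (Fin k → Bool) (Fin k → Bool)),
      s.probWinsAtLeast μ (fun x y a b => f x y (xor a b)) (α * k)
        ≤ Real.exp (-((α * Real.log (α / entValue μ (fun x y a b => f x y (xor a b)))
            + (1 - α) * Real.log ((1 - α) / (1 - entValue μ (fun x y a b => f x y (xor a b)))))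
            * k)))
    ∧ ∀ c : ℝ, α * Real.log (α / entValue μ (fun x y a b => f x y (xor a b)))
          + (1 - α) * Real.log ((1 - α) / (1 - entValue μ (fun x y a b => f x y (xor a b)))) < c →
        ∃ K : ℕ, ∀ k : ℕ, K ≤ k →
          ∃ s : EntStrategy (Fin k → X) (Fin k → Y) (Fin k → Bool) (Fin k → Bool),
            Real.exp (-(c * k)) ≤ s.probWinsAtLeast μ (fun x y a b => f x y (xor a b)) (α * k) := by
  refine ⟨fun k s => parity_threshold_kl μ hμ0 hμ1 f α hv0 hva hα1 k s, fun c hc => ?_⟩
  obtain ⟨s₁, -⟩ := tsirelson_strategy (X := X) (Y := Y) 0 (fun _ => 0) (fun _ => 0)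
    (fun x => by simp) (fun y => by simp)
  exact threshold_lower μ hμ0 hμ1 (fun x y a b => f x y (xor a b)) s₁ α hv0 hva hα1 c hc

end Vale.Agent.H94
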