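import Mathlib
import Vale.Agent.H94.Defs

/-!
# Basic facts about entangled strategies

Probabilities are nonnegative and normalised; signed combinations of the outcome
probabilities are inner products of real vectors of norm at most one.
-/

namespace Vale.Agent.H94

open Finset Matrix
open scoped Kronecker ComplexOrder MatrixOrder

section basic
variable {X Y A B : Type} [Fintype A] [Fintype B]

lemma EntStrategy.prob_nonneg (s : EntStrategy X Y A B) (x : X) (y : Y) (a : A) (b : B) :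
    0 ≤ s.prob x y a b := by
  have h := ((s.M_pos x a).kronecker (s.N_pos y b)).re_dotProduct_nonneg s.ψ
  simpa [EntStrategy.prob] using h

lemma kron_sum_smul {ι κ : Type} [Fintype ι] [Fintype κ]
    (c : A → ℂ) (d : B → ℂ) (M : A → Matrix ι ι ℂ) (N : B → Matrix κ κ ℂ) :
    (∑ a, c a • M a) ⊗ₖ (∑ b, d b • N b) = ∑ a, ∑ b, (c a * d b) • (M a ⊗ₖ N b) := by
  ext p q
  simp only [kroneckerMap_apply, Matrix.sum_apply, Matrix.smul_apply, smul_eq_mul,
    Finset.sum_mul_sum]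
  refine Finset.sum_congr rfl fun a _ => Finset.sum_congr rfl fun b _ => ?_
  ring

lemma quad_sum_smul {κ : Type} [Fintype κ] (ψ : κ → ℂ) (c : A → B → ℂ)
    (K : A → B → Matrix κ κ ℂ) :
    star ψ ⬝ᵥ (∑ a, ∑ b, c a b • K a b) *ᵥ ψ = ∑ a, ∑ b, c a b * (star ψ ⬝ᵥ K a b *ᵥ ψ) := by
  simp only [Matrix.sum_mulVec, dotProduct_sum, Matrix.smul_mulVec, dotProduct_smul, smul_eq_mul]

/-- Signed sums of outcome probabilities as a quadratic form of the signed operators. -/
lemma EntStrategy.signed_prob (s : EntStrategy X Y A B) (f : A → ℝ) (g : B → ℝ) (x : X) (y : Y) :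
    ∑ a, ∑ b, f a * g b * s.prob x y a b
      = (star s.ψ ⬝ᵥ ((∑ a, (f a : ℂ) • s.M x a) ⊗ₖ (∑ b, (g b : ℂ) • s.N y b)) *ᵥ s.ψ).re := by
  rw [kron_sum_smul, quad_sum_smul, Complex.re_sum]
  refine Finset.sum_congr rfl fun a _ => ?_
  rw [Complex.re_sum]
  refine Finset.sum_congr rfl fun b _ => ?_
  rw [← Complex.ofReal_mul, Complex.re_ofReal_mul]
  rfl

lemma EntStrategy.sum_prob (s : EntStrategy X Y A B) (x : X) (y : Y) :
    ∑ a, ∑ b, s.prob x y a b = 1 := by
  have h := s.signed_prob (fun _ => 1) (fun _ => 1) x y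
  simp only [one_mul, Complex.ofReal_one, one_smul, s.M_sum, s.N_sum, Matrix.one_kronecker_one,
    Matrix.one_mulVec, s.ψ_unit, Complex.one_re] at h
  exact h

end basic

section value
variable {X Y A B : Type} [Fintype X] [Fintype Y] [Fintype A] [Fintype B]

lemma EntStrategy.winProb_le_one (μ : X → Y → ℝ) (hμ0 : ∀ x y, 0 ≤ μ x y)
    (hμ1 : ∑ x, ∑ y, μ x y = 1) (V : X → Y → A → B → Bool) (s : EntStrategy X Y A B) :
    s.winProb μ V ≤ 1 := by
  unfold EntStrategy.winProb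
  rw [← hμ1]
  refine Finset.sum_le_sum fun x _ => Finset.sum_le_sum fun y _ => ?_
  calc ∑ a, ∑ b, (if V x y a b = true then μ x y * s.prob x y a b else 0)
      ≤ ∑ a, ∑ b, μ x y * s.prob x y a b := by
        refine Finset.sum_le_sum fun a _ => Finset.sum_le_sum fun b _ => ?_
        split_ifs
        · exact le_rfl
        · exact mul_nonneg (hμ0 x y) (s.prob_nonneg x y a b)
    _ = μ x y := by
        simp only [← Finset.mul_sum, s.sum_prob, mul_one]

lemma winProb_le_entValue (μ : X → Y → ℝ) (hμ0 : ∀ x y, 0 ≤ μ x y)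
    (hμ1 : ∑ x, ∑ y, μ x y = 1) (V : X → Y → A → B → Bool) (s : EntStrategy X Y A B) :
    s.winProb μ V ≤ entValue μ V := by
  refine le_ciSup (f := fun s : EntStrategy X Y A B => s.winProb μ V) ?_ s
  exact ⟨1, by rintro _ ⟨t, rfl⟩; exact t.winProb_le_one μ hμ0 hμ1 V⟩

end value

section vectors

lemma contraction_vec {κ : Type} [Fintype κ] [DecidableEq κ] (K : Matrix κ κ ℂ)
    (hK : K.IsHermitian) (hpsd : (1 - K * K).PosSemidef) (φ : κ → ℂ) :
    (star (K *ᵥ φ) ⬝ᵥ (K *ᵥ φ)).re ≤ (star φ ⬝ᵥ φ).re := by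
  have h := hpsd.re_dotProduct_nonneg φ
  have e : star (K *ᵥ φ) ⬝ᵥ (K *ᵥ φ) = star φ ⬝ᵥ ((K * K) *ᵥ φ) := by
    rw [star_mulVec, hK.eq, ← dotProduct_mulVec, mulVec_mulVec]
  rw [e]
  have e2 : star φ ⬝ᵥ ((1 - K * K) *ᵥ φ) = star φ ⬝ᵥ φ - star φ ⬝ᵥ ((K * K) *ᵥ φ) := by
    rw [sub_mulVec, one_mulVec, dotProduct_sub]
  rw [e2] at h
  simp only [RCLike.re_to_complex, Complex.sub_re] at h
  linarith

/-- For a POVM `M` and signs `f`, the signed operator `∑ a, f a • M a` is a Hermitian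
contraction. -/
lemma signed_povm_contraction {A ι : Type} [Fintype A] [Fintype ι] [DecidableEq ι]
    (M : A → Matrix ι ι ℂ) (hM : ∀ a, (M a).PosSemidef) (hMs : ∑ a, M a = 1)
    (f : A → ℝ) (hf : ∀ a, f a * f a = 1) :
    (∑ a, (f a : ℂ) • M a).IsHermitian ∧
      (1 - (∑ a, (f a : ℂ) • M a) * (∑ a, (f a : ℂ) • M a)).PosSemidef := by
  set T : Matrix ι ι ℂ := ∑ a, (f a : ℂ) • M a with hT
  have hTh : T.IsHermitian := by
    rw [hT]
    unfold Matrix.IsHermitian
    rw [Matrix.conjTranspose_sum]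
    refine Finset.sum_congr rfl fun a _ => ?_
    rw [Matrix.conjTranspose_smul, (hM a).isHermitian.eq]
    simp
  refine ⟨hTh, ?_⟩
  have e : ∀ a, ((f a : ℂ) • (1 : Matrix ι ι ℂ) - T) * M a * ((f a : ℂ) • (1 : Matrix ι ι ℂ) - T)ᴴ
      = M a - ((f a : ℂ) • M a) * T - T * ((f a : ℂ) • M a) + T * M a * T := by
    intro a
    have hc : (f a : ℂ) * (f a : ℂ) = 1 := by exact_mod_cast hf a
    have hH : ((f a : ℂ) • (1 : Matrix ι ι ℂ) - T)ᴴ = (f a : ℂ) • (1 : Matrix ι ι ℂ) - T := by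
      rw [Matrix.conjTranspose_sub, Matrix.conjTranspose_smul, Matrix.conjTranspose_one, hTh.eq]
      simp
    rw [hH]
    simp only [sub_mul, mul_sub, smul_mul_assoc, mul_smul_comm, one_mul, mul_one, smul_sub,
      smul_smul, hc, one_smul]
    abel
  have key : 1 - T * T
      = ∑ a, ((f a : ℂ) • (1 : Matrix ι ι ℂ) - T) * M a
          * ((f a : ℂ) • (1 : Matrix ι ι ℂ) - T)ᴴ := by
    simp only [e, Finset.sum_add_distrib, Finset.sum_sub_distrib, ← Finset.sum_mul,
      ← Finset.mul_sum, hMs, ← hT, mul_one]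
    abel
  rw [key]
  exact posSemidef_sum _ fun a _ => (hM a).mul_mul_conjTranspose_same _

/-- The real vector `(re z, im z)` of a complex vector `z`. -/
def realify {κ : Type} (z : κ → ℂ) : κ ⊕ κ → ℝ := Sum.elim (fun p => (z p).re) (fun p => (z p).im)

lemma realify_dot {κ : Type} [Fintype κ] (z w : κ → ℂ) :
    realify z ⬝ᵥ realify w = (star z ⬝ᵥ w).re := by
  simp only [dotProduct, realify, Fintype.sum_sum_type, Sum.elim_inl, Sum.elim_inr,
    Pi.star_apply, Complex.re_sum, Complex.mul_re, Complex.star_def, Complex.conj_re,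
    Complex.conj_im, neg_mul, sub_neg_eq_add, Finset.sum_add_distrib]

variable {X Y A B : Type} [Fintype A] [Fintype B]

/-- Signed sums of the outcome probabilities of an entangled strategy are inner products of
real vectors of norm at most one. -/
theorem EntStrategy.exists_vectors (s : EntStrategy X Y A B) (f : A → ℝ) (g : B → ℝ)
    (hf : ∀ a, f a * f a = 1) (hg : ∀ b, g b * g b = 1) :
    ∃ (α : X → (Fin s.dA × Fin s.dB) ⊕ (Fin s.dA × Fin s.dB) → ℝ)
      (β : Y → (Fin s.dA × Fin s.dB) ⊕ (Fin s.dA × Fin s.dB) → ℝ),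
      (∀ x, α x ⬝ᵥ α x ≤ 1) ∧ (∀ y, β y ⬝ᵥ β y ≤ 1) ∧
      ∀ x y, ∑ a, ∑ b, f a * g b * s.prob x y a b = α x ⬝ᵥ β y := by
  classical
  set TA : X → Matrix (Fin s.dA) (Fin s.dA) ℂ := fun x => ∑ a, (f a : ℂ) • s.M x a with hTA
  set TB : Y → Matrix (Fin s.dB) (Fin s.dB) ℂ := fun y => ∑ b, (g b : ℂ) • s.N y b with hTB
  have hA := fun x => signed_povm_contraction (s.M x) (s.M_pos x) (s.M_sum x) f hf
  have hB := fun y => signed_povm_contraction (s.N y) (s.N_pos y) (s.N_sum y) g hg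
  set KA : X → Matrix (Fin s.dA × Fin s.dB) (Fin s.dA × Fin s.dB) ℂ :=
    fun x => TA x ⊗ₖ (1 : Matrix (Fin s.dB) (Fin s.dB) ℂ) with hKA
  set KB : Y → Matrix (Fin s.dA × Fin s.dB) (Fin s.dA × Fin s.dB) ℂ :=
    fun y => (1 : Matrix (Fin s.dA) (Fin s.dA) ℂ) ⊗ₖ TB y with hKB
  have hKAh : ∀ x, (KA x).IsHermitian := by
    intro x
    unfold Matrix.IsHermitian
    rw [hKA]
    simp only
    rw [conjTranspose_kronecker, (hA x).1.eq, Matrix.conjTranspose_one]
  have hKBh : ∀ y, (KB y).IsHermitian := by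
    intro y
    unfold Matrix.IsHermitian
    rw [hKB]
    simp only
    rw [conjTranspose_kronecker, (hB y).1.eq, Matrix.conjTranspose_one]
  have hKAp : ∀ x, (1 - KA x * KA x).PosSemidef := by
    intro x
    have h := ((hA x).2).kronecker (PosSemidef.one (n := Fin s.dB) (R := ℂ))
    have e : (1 - TA x * TA x) ⊗ₖ (1 : Matrix (Fin s.dB) (Fin s.dB) ℂ) = 1 - KA x * KA x := by
      rw [eq_sub_iff_add_eq, hKA]
      simp only
      rw [← mul_kronecker_mul, mul_one, ← add_kronecker, sub_add_cancel, one_kronecker_one]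
    rw [← e]
    exact h
  have hKBp : ∀ y, (1 - KB y * KB y).PosSemidef := by
    intro y
    have h := (PosSemidef.one (n := Fin s.dA) (R := ℂ)).kronecker ((hB y).2)
    have e : (1 : Matrix (Fin s.dA) (Fin s.dA) ℂ) ⊗ₖ (1 - TB y * TB y) = 1 - KB y * KB y := by
      rw [eq_sub_iff_add_eq, hKB]
      simp only
      rw [← mul_kronecker_mul, mul_one, ← kronecker_add, sub_add_cancel, one_kronecker_one]
    rw [← e]
    exact h
  refine ⟨fun x => realify (KA x *ᵥ s.ψ), fun y => realify (KB y *ᵥ s.ψ), ?_, ?_, ?_⟩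
  · intro x
    rw [realify_dot]
    have h := contraction_vec (KA x) (hKAh x) (hKAp x) s.ψ
    rw [s.ψ_unit] at h
    simpa using h
  · intro y
    rw [realify_dot]
    have h := contraction_vec (KB y) (hKBh y) (hKBp y) s.ψ
    rw [s.ψ_unit] at h
    simpa using h
  · intro x y
    rw [realify_dot, s.signed_prob f g x y]
    congr 1
    have e : TA x ⊗ₖ TB y = KA x * KB y := by
      rw [hKA, hKB]
      simp only
      rw [← mul_kronecker_mul, mul_one, one_mul]
    show star s.ψ ⬝ᵥ (TA x ⊗ₖ TB y) *ᵥ s.ψ = _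
    rw [e, star_mulVec, (hKAh x).eq, ← dotProduct_mulVec, mulVec_mulVec]

end vectors

end Vale.Agent.H94
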