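import Mathlib
import Vale.Agent.H94.Defs
import Vale.Agent.H94.Clifford

/-!
# Tsirelson's construction

From real vectors `u x`, `v y` of norm at most one we build a finite-dimensional entangled
strategy with binary answers whose correlations are the inner products `⟨u x, v y⟩`.
-/

namespace Vale.Agent.H94

open Finset Matrix
open scoped Kronecker ComplexOrder MatrixOrder

section generic
variable {X Y A B : Type} [Fintype A] [Fintype B]

/-- A strategy given on arbitrary finite index types can be transported to `Fin` index types. -/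
theorem exists_strategy_of_generic {ιA ιB : Type} [Fintype ιA] [Fintype ιB]
    [DecidableEq ιA] [DecidableEq ιB]
    (ψ : ιA × ιB → ℂ) (M : X → A → Matrix ιA ιA ℂ) (N : Y → B → Matrix ιB ιB ℂ)
    (hψ : star ψ ⬝ᵥ ψ = 1) (hM : ∀ x a, (M x a).PosSemidef) (hMs : ∀ x, ∑ a, M x a = 1)
    (hN : ∀ y b, (N y b).PosSemidef) (hNs : ∀ y, ∑ b, N y b = 1) :
    ∃ s : EntStrategy X Y A B, ∀ x y a b,
      s.prob x y a b = (star ψ ⬝ᵥ (M x a ⊗ₖ N y b) *ᵥ ψ).re := by
  classical
  set eA := (Fintype.equivFin ιA).symm with heA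
  set eB := (Fintype.equivFin ιB).symm with heB
  set e : Fin (Fintype.card ιA) × Fin (Fintype.card ιB) ≃ ιA × ιB :=
    Equiv.prodCongr eA eB with he
  refine ⟨{ dA := Fintype.card ιA, dB := Fintype.card ιB,
            ψ := fun p => ψ (e p),
            M := fun x a => (M x a).submatrix eA eA,
            N := fun y b => (N y b).submatrix eB eB,
            ψ_unit := ?_, M_pos := fun x a => (hM x a).submatrix _, M_sum := ?_,
            N_pos := fun y b => (hN y b).submatrix _, N_sum := ?_ }, ?_⟩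
  · rw [← hψ]
    simp only [dotProduct, Pi.star_apply]
    exact Equiv.sum_comp e (fun q => star (ψ q) * ψ q)
  · intro x
    have h : (∑ a, M x a).submatrix eA eA = 1 := by
      rw [hMs x, Matrix.submatrix_one_equiv]
    rw [← h]
    ext i j
    simp only [Matrix.sum_apply, Matrix.submatrix_apply]
  · intro y
    have h : (∑ b, N y b).submatrix eB eB = 1 := by
      rw [hNs y, Matrix.submatrix_one_equiv]
    rw [← h]
    ext i j
    simp only [Matrix.sum_apply, Matrix.submatrix_apply]
  · intro x y a b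
    simp only [EntStrategy.prob]
    congr 1
    simp only [dotProduct, mulVec, Pi.star_apply, kroneckerMap_apply, submatrix_apply]
    refine Fintype.sum_equiv e _ _ (fun p => ?_)
    congr 1
    exact Fintype.sum_equiv e _ _ (fun q => rfl)

end generic

section bridge

lemma psd_map_ofReal {ι : Type} [Fintype ι] [DecidableEq ι] (P : Matrix ι ι ℝ)
    (hP : P.PosSemidef) : (P.map Complex.ofRealHom).PosSemidef := by
  obtain ⟨B, hB⟩ := CStarAlgebra.nonneg_iff_eq_star_mul_self.mp hP.nonneg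
  have h : P.map Complex.ofRealHom
      = (B.map Complex.ofRealHom)ᴴ * (B.map Complex.ofRealHom) := by
    rw [hB, Matrix.map_mul]
    congr 1
    ext i j
    simp [Matrix.star_apply, Matrix.conjTranspose_apply]
  rw [h]
  exact posSemidef_conjTranspose_mul_self _

lemma re_dot_map {ι κ : Type} [Fintype ι] [Fintype κ] (ψr : ι × κ → ℝ) (P : Matrix ι ι ℝ)
    (Q : Matrix κ κ ℝ) :
    (star (fun p => (ψr p : ℂ)) ⬝ᵥ
        ((P.map Complex.ofRealHom) ⊗ₖ (Q.map Complex.ofRealHom)) *ᵥ (fun p => (ψr p : ℂ))).re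
      = ψr ⬝ᵥ ((P ⊗ₖ Q) *ᵥ ψr) := by
  have h : star (fun p => (ψr p : ℂ)) ⬝ᵥ
        ((P.map Complex.ofRealHom) ⊗ₖ (Q.map Complex.ofRealHom)) *ᵥ (fun p => (ψr p : ℂ))
      = ((ψr ⬝ᵥ ((P ⊗ₖ Q) *ᵥ ψr) : ℝ) : ℂ) := by
    simp [dotProduct, mulVec, kroneckerMap_apply, Matrix.map_apply]
  rw [h, Complex.ofReal_re]

end bridge

section construction
variable {n : ℕ}

/-- The sign `(-1)^a` of a bit. -/
def sgnB (a : Bool) : ℝ := if a = true then -1 else 1

lemma sgnB_mul_self (a : Bool) : sgnB a * sgnB a = 1 := by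
  cases a <;> simp [sgnB]

/-- The real measurement operator `(1 + σ A(w)) / 2`. -/
noncomputable def povmR (w : Fin n → ℝ) (σ : ℝ) : Matrix (Fin n → Bool) (Fin n → Bool) ℝ :=
  (1 / 2 : ℝ) • (1 + σ • cliffLin w)

lemma povmR_transpose (w : Fin n → ℝ) (σ : ℝ) : (povmR w σ)ᵀ = povmR w σ := by
  simp only [povmR, Matrix.transpose_smul, Matrix.transpose_add, Matrix.transpose_one,
    cliffLin_transpose]

lemma povmR_posSemidef (w : Fin n → ℝ) (hw : w ⬝ᵥ w ≤ 1) (σ : ℝ) (hσ : σ * σ = 1) :
    (povmR w σ).PosSemidef := by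
  have hH : (1 + σ • cliffLin w)ᴴ = 1 + σ • cliffLin w := by
    rw [Matrix.conjTranspose_eq_transpose_of_trivial, Matrix.transpose_add,
      Matrix.transpose_one, Matrix.transpose_smul, cliffLin_transpose]
  have hsq : (1 + σ • cliffLin w) * (1 + σ • cliffLin w)
      = (1 + w ⬝ᵥ w) • (1 : Matrix (Fin n → Bool) (Fin n → Bool) ℝ) + (2 * σ) • cliffLin w := by
    rw [add_mul, mul_add, mul_add, one_mul, one_mul, mul_one, smul_mul_smul_comm, cliffLin_sq,
      hσ, one_smul, add_smul, one_smul, mul_smul, two_smul]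
    abel
  have hrep : povmR w σ = (1 / 4 : ℝ) • ((1 + σ • cliffLin w)ᴴ * (1 + σ • cliffLin w)
      + (1 - w ⬝ᵥ w) • (1 : Matrix (Fin n → Bool) (Fin n → Bool) ℝ)) := by
    rw [hH, hsq, povmR]
    ext s t
    simp only [Matrix.smul_apply, Matrix.add_apply, smul_eq_mul]
    ring
  rw [hrep]
  refine PosSemidef.smul ?_ (by norm_num)
  refine PosSemidef.add (posSemidef_conjTranspose_mul_self _) ?_
  exact PosSemidef.smul PosSemidef.one (by linarith)

lemma povmR_sum (w : Fin n → ℝ) : ∑ a : Bool, povmR w (sgnB a) = 1 := by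
  rw [Fintype.sum_bool]
  ext s t
  simp only [povmR, sgnB, Matrix.smul_apply, Matrix.add_apply, smul_eq_mul]
  simp
  ring

lemma povmR_trace_mul (u v : Fin n → ℝ) (σ τ : ℝ) :
    (povmR u σ * povmR v τ).trace
      = (Fintype.card (Fin n → Bool) : ℝ) * (1 + σ * τ * (u ⬝ᵥ v)) / 4 := by
  have h : povmR u σ * povmR v τ = (1 / 4 : ℝ) • ((1 : Matrix (Fin n → Bool) (Fin n → Bool) ℝ)
      + τ • cliffLin v + σ • cliffLin u + (σ * τ) • (cliffLin u * cliffLin v)) := by
    simp only [povmR, smul_mul_smul_comm, add_mul, mul_add, one_mul, mul_one]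
    rw [show (1 / 2 : ℝ) * (1 / 2) = 1 / 4 by norm_num]
    congr 1
    abel
  rw [h]
  simp only [Matrix.trace_smul, Matrix.trace_add, Matrix.trace_one, cliffLin_trace,
    cliffLin_trace_mul, smul_eq_mul]
  ring

/-- The maximally entangled real unit vector on `ι × ι`. -/
noncomputable def maxEnt (ι : Type) [Fintype ι] [DecidableEq ι] : ι × ι → ℝ :=
  fun p => if p.1 = p.2 then (Real.sqrt (Fintype.card ι))⁻¹ else 0

lemma maxEnt_dot {ι : Type} [Fintype ι] [DecidableEq ι] (P Q : Matrix ι ι ℝ) :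
    maxEnt ι ⬝ᵥ ((P ⊗ₖ Q) *ᵥ maxEnt ι)
      = ((Fintype.card ι : ℝ))⁻¹ * (P * Qᵀ).trace := by
  have hd : (Real.sqrt (Fintype.card ι))⁻¹ * (Real.sqrt (Fintype.card ι))⁻¹
      = ((Fintype.card ι : ℝ))⁻¹ := by
    rw [← mul_inv, Real.mul_self_sqrt (Nat.cast_nonneg _)]
  simp only [dotProduct, mulVec, kroneckerMap_apply, maxEnt, Fintype.sum_prod_type,
    Matrix.trace, Matrix.diag_apply, Matrix.mul_apply, Matrix.transpose_apply]
  simp only [mul_ite, mul_zero, ite_mul, zero_mul, Finset.sum_ite_eq, Finset.mem_univ, if_true]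
  rw [Finset.mul_sum]
  refine Finset.sum_congr rfl fun s _ => ?_
  rw [← hd, Finset.mul_sum, Finset.mul_sum]
  refine Finset.sum_congr rfl fun t _ => ?_
  ring

lemma maxEnt_unit {ι : Type} [Fintype ι] [DecidableEq ι] [Nonempty ι] :
    maxEnt ι ⬝ᵥ maxEnt ι = 1 := by
  have hpos : (0 : ℝ) < Fintype.card ι := by exact_mod_cast Fintype.card_pos
  have hd : (Real.sqrt (Fintype.card ι))⁻¹ * (Real.sqrt (Fintype.card ι))⁻¹
      = ((Fintype.card ι : ℝ))⁻¹ := by
    rw [← mul_inv, Real.mul_self_sqrt (Nat.cast_nonneg _)]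
  simp only [dotProduct, maxEnt, Fintype.sum_prod_type]
  simp only [mul_ite, mul_zero, ite_mul, zero_mul, Finset.sum_ite_eq, Finset.mem_univ, if_true]
  rw [Finset.sum_const, Finset.card_univ, nsmul_eq_mul, hd]
  field_simp

/-- Tsirelson's construction: vectors of norm at most one are realised as correlations of an
entangled strategy with binary answers. -/
theorem tsirelson_strategy {X Y : Type} (n : ℕ) (u : X → Fin n → ℝ) (v : Y → Fin n → ℝ)
    (hu : ∀ x, u x ⬝ᵥ u x ≤ 1) (hv : ∀ y, v y ⬝ᵥ v y ≤ 1) :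
    ∃ s : EntStrategy X Y Bool Bool, ∀ x y a b,
      s.prob x y a b = (1 + sgnB a * sgnB b * (u x ⬝ᵥ v y)) / 4 := by
  classical
  obtain ⟨s, hs⟩ := exists_strategy_of_generic (X := X) (Y := Y) (A := Bool) (B := Bool)
    (ιA := Fin n → Bool) (ιB := Fin n → Bool)
    (fun p => ((maxEnt (Fin n → Bool) p : ℝ) : ℂ))
    (fun x a => (povmR (u x) (sgnB a)).map Complex.ofRealHom)
    (fun y b => (povmR (v y) (sgnB b)).map Complex.ofRealHom)
    (by
      have h := maxEnt_unit (ι := Fin n → Bool)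
      simp only [dotProduct] at h
      simp only [dotProduct, Pi.star_apply, Complex.star_def, Complex.conj_ofReal]
      rw [← Complex.ofReal_one, ← h]
      push_cast
      rfl)
    (fun x a => psd_map_ofReal _ (povmR_posSemidef _ (hu x) _ (sgnB_mul_self a)))
    (fun x => by
      have h := povmR_sum (u x)
      rw [← Matrix.map_one Complex.ofRealHom (map_zero _) (map_one _), ← h]
      ext i j
      simp [Matrix.sum_apply, Matrix.map_apply])
    (fun y b => psd_map_ofReal _ (povmR_posSemidef _ (hv y) _ (sgnB_mul_self b)))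
    (fun y => by
      have h := povmR_sum (v y)
      rw [← Matrix.map_one Complex.ofRealHom (map_zero _) (map_one _), ← h]
      ext i j
      simp [Matrix.sum_apply, Matrix.map_apply])
  refine ⟨s, fun x y a b => ?_⟩
  rw [hs, re_dot_map, maxEnt_dot, povmR_transpose, povmR_trace_mul]
  have hpos : (0 : ℝ) < Fintype.card (Fin n → Bool) := by exact_mod_cast Fintype.card_pos
  field_simp

end construction

end Vale.Agent.H94
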