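import Mathlib
import Vale.Agent.H94.Defs
import Vale.Agent.H94.Chernoff
import Vale.Agent.H94.GramBound
import Vale.Agent.H94.Duality
import Vale.Agent.H94.Tsirelson
import Vale.Agent.H94.Strategy

/-!
# The threshold theorem for entangled XOR games
-/

namespace Vale.Agent.H94

open Finset Matrix

variable {X Y : Type} [Fintype X] [Fintype Y]

lemma dot_le_one_of_norm_le {N : Type} [Fintype N] (u v : N → ℝ) (hu : u ⬝ᵥ u ≤ 1)
    (hv : v ⬝ᵥ v ≤ 1) : u ⬝ᵥ v ≤ 1 := by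
  have h : 0 ≤ (u - v) ⬝ᵥ (u - v) := by
    simp only [dotProduct]
    exact Finset.sum_nonneg fun i _ => mul_self_nonneg _
  rw [sub_dotProduct, dotProduct_sub, dotProduct_sub, dotProduct_comm v u] at h
  linarith

lemma xor_local_sum (m : ℝ) (t : ℝ) (cc : Bool) :
    ∑ a : Bool, ∑ b : Bool,
      (if (xor a b == cc) = true then m * ((1 + sgnB a * sgnB b * t) / 4) else 0)
      = m * (1 + sgnB cc * t) / 2 := by
  cases cc <;> simp [sgnB] <;> ring

/-- The vector program of an XOR game is bounded by its entangled bias (Tsirelson). -/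
lemma xor_vec_le (μ : X → Y → ℝ) (hμ0 : ∀ x y, 0 ≤ μ x y) (hμ1 : ∑ x, ∑ y, μ x y = 1)
    (c : X → Y → Bool) (n : ℕ) (u : X → Fin n → ℝ) (v : Y → Fin n → ℝ)
    (hu : ∀ x, u x ⬝ᵥ u x ≤ 1) (hv : ∀ y, v y ⬝ᵥ v y ≤ 1) :
    ∑ x, ∑ y, (μ x y * sgnB (c x y)) * (u x ⬝ᵥ v y) ≤ 2 * entValue μ (xorPred c) - 1 := by
  obtain ⟨s, hs⟩ := tsirelson_strategy n u v hu hv
  have hle := winProb_le_entValue μ hμ0 hμ1 (xorPred c) s
  have hwin : s.winProb μ (xorPred c)
      = (1 + ∑ x, ∑ y, (μ x y * sgnB (c x y)) * (u x ⬝ᵥ v y)) / 2 := by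
    unfold EntStrategy.winProb
    have h1 : ∀ x y, ∑ a, ∑ b, (if xorPred c x y a b = true then μ x y * s.prob x y a b else 0)
        = μ x y * (1 + sgnB (c x y) * (u x ⬝ᵥ v y)) / 2 := by
      intro x y
      simp only [hs, xorPred]
      exact xor_local_sum (μ x y) (u x ⬝ᵥ v y) (c x y)
    simp only [h1]
    have h2 : ∀ x y, μ x y * (1 + sgnB (c x y) * (u x ⬝ᵥ v y)) / 2
        = μ x y / 2 + (μ x y * sgnB (c x y)) * (u x ⬝ᵥ v y) / 2 := by
      intro x y
      ring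
    simp only [h2, Finset.sum_add_distrib, ← Finset.sum_div, hμ1]
    ring
  rw [hwin] at hle
  linarith

/-- The entangled bias of an XOR game is nonnegative. -/
lemma xor_bias_nonneg (μ : X → Y → ℝ) (hμ0 : ∀ x y, 0 ≤ μ x y) (hμ1 : ∑ x, ∑ y, μ x y = 1)
    (c : X → Y → Bool) : 0 ≤ 2 * entValue μ (xorPred c) - 1 := by
  have h := xor_vec_le μ hμ0 hμ1 c 0 (fun _ => 0) (fun _ => 0) (fun x => by simp)
    (fun y => by simp)
  simpa using h

lemma prod_sgnB_mul_self {k : ℕ} (S : Finset (Fin k)) (a : Fin k → Bool) :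
    (∏ i ∈ S, sgnB (a i)) * (∏ i ∈ S, sgnB (a i)) = 1 := by
  rw [← Finset.prod_mul_distrib]
  exact Finset.prod_eq_one fun i _ => sgnB_mul_self _

lemma xor_sign_eq (a b cc : Bool) :
    (if (xor a b == cc) = true then (1 : ℝ) else -1) = sgnB a * sgnB b * sgnB cc := by
  cases a <;> cases b <;> cases cc <;> simp [sgnB]

/-- Product-moment bound for the win signs of a strategy for the repeated XOR game. -/
theorem xor_moment_bound (μ : X → Y → ℝ) (hμ0 : ∀ x y, 0 ≤ μ x y) (hμ1 : ∑ x, ∑ y, μ x y = 1)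
    (c : X → Y → Bool) {k : ℕ}
    (s : EntStrategy (Fin k → X) (Fin k → Y) (Fin k → Bool) (Fin k → Bool))
    (S : Finset (Fin k)) :
    ∑ x : Fin k → X, ∑ y : Fin k → Y, ∑ a : Fin k → Bool, ∑ b : Fin k → Bool,
        ((∏ i, μ (x i) (y i)) * s.prob x y a b) *
          ∏ i ∈ S, (if xorPred c (x i) (y i) (a i) (b i) = true then (1 : ℝ) else -1)
      ≤ (2 * entValue μ (xorPred c) - 1) ^ S.card := by
  classical
  set ε : ℝ := 2 * entValue μ (xorPred c) - 1 with hε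
  have hε0 : 0 ≤ ε := xor_bias_nonneg μ hμ0 hμ1 c
  obtain ⟨α, β, hα, hβ, hαβ⟩ := s.exists_vectors (fun a => ∏ i ∈ S, sgnB (a i))
    (fun b => ∏ i ∈ S, sgnB (b i)) (prod_sgnB_mul_self S) (prod_sgnB_mul_self S)
  set Mf : Fin k → X → Y → ℝ := fun i x y => μ x y * (if i ∈ S then sgnB (c x y) else 1)
    with hMf
  set ρ : Fin k → ℝ := fun i => if i ∈ S then ε else 1 with hρ
  have hcert : ∀ i, GramCert (Mf i) (ρ i) := by
    intro i
    by_cases hi : i ∈ S
    · have e1 : Mf i = fun x y => μ x y * sgnB (c x y) := by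
        funext x y
        simp only [hMf, if_pos hi]
      have e2 : ρ i = ε := by simp only [hρ, if_pos hi]
      rw [e1, e2]
      exact gramCert_of_vec _ _ (fun n u v hu hv => xor_vec_le μ hμ0 hμ1 c n u v hu hv)
    · have e1 : Mf i = μ := by
        funext x y
        simp only [hMf, if_neg hi, mul_one]
      have e2 : ρ i = 1 := by simp only [hρ, if_neg hi]
      rw [e1, e2]
      refine gramCert_of_vec _ _ (fun n u v hu hv => ?_)
      calc ∑ x, ∑ y, μ x y * (u x ⬝ᵥ v y) ≤ ∑ x, ∑ y, μ x y * 1 := by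
            refine Finset.sum_le_sum fun x _ => Finset.sum_le_sum fun y _ => ?_
            exact mul_le_mul_of_nonneg_left (dot_le_one_of_norm_le _ _ (hu x) (hv y)) (hμ0 x y)
        _ = 1 := by simp only [mul_one, hμ1]
  have hbound := prod_cert_bound Mf ρ hcert α β hα hβ
  have hrho : ∏ i, ρ i ^ 2 = (ε ^ S.card) ^ 2 := by
    have : ∀ i, ρ i ^ 2 = if i ∈ S then ε ^ 2 else 1 := by
      intro i
      simp only [hρ]
      split_ifs <;> simp
    simp only [this]
    rw [Finset.prod_ite_mem, Finset.univ_inter, Finset.prod_const, ← pow_mul, ← pow_mul,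
      mul_comm]
  rw [hrho] at hbound
  have hrewrite : ∑ x : Fin k → X, ∑ y : Fin k → Y, ∑ a : Fin k → Bool, ∑ b : Fin k → Bool,
        ((∏ i, μ (x i) (y i)) * s.prob x y a b) *
          ∏ i ∈ S, (if xorPred c (x i) (y i) (a i) (b i) = true then (1 : ℝ) else -1)
      = ∑ x, ∑ y, (∏ i, Mf i (x i) (y i)) * (α x ⬝ᵥ β y) := by
    refine Finset.sum_congr rfl fun x _ => Finset.sum_congr rfl fun y _ => ?_
    rw [← hαβ x y, Finset.mul_sum]
    refine Finset.sum_congr rfl fun a _ => ?_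
    rw [Finset.mul_sum]
    refine Finset.sum_congr rfl fun b _ => ?_
    have e1 : ∏ i ∈ S, (if xorPred c (x i) (y i) (a i) (b i) = true then (1 : ℝ) else -1)
        = (∏ i ∈ S, sgnB (a i)) * (∏ i ∈ S, sgnB (b i)) * ∏ i ∈ S, sgnB (c (x i) (y i)) := by
      rw [← Finset.prod_mul_distrib, ← Finset.prod_mul_distrib]
      refine Finset.prod_congr rfl fun i _ => ?_
      exact xor_sign_eq _ _ _
    have e2 : ∏ i, Mf i (x i) (y i)
        = (∏ i, μ (x i) (y i)) * ∏ i ∈ S, sgnB (c (x i) (y i)) := by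
      simp only [hMf]
      rw [Finset.prod_mul_distrib, Finset.prod_ite_mem, Finset.univ_inter]
    rw [e1, e2]
    ring
  rw [hrewrite]
  have hpow : 0 ≤ ε ^ S.card := pow_nonneg hε0 _
  exact le_trans (le_abs_self _) (abs_le_of_sq_le_sq hbound hpow)

/-- **Threshold theorem for entangled XOR games.** -/
theorem xor_threshold (μ : X → Y → ℝ) (hμ0 : ∀ x y, 0 ≤ μ x y) (hμ1 : ∑ x, ∑ y, μ x y = 1)
    (c : X → Y → Bool) (δ : ℝ) (hδ : 0 < δ) (k : ℕ)
    (s : EntStrategy (Fin k → X) (Fin k → Y) (Fin k → Bool) (Fin k → Bool)) :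
    s.probWinsAtLeast μ (xorPred c) ((entValue μ (xorPred c) + δ) * k)
      ≤ Real.exp (-(2 * δ ^ 2 * k)) := by
  classical
  set ε : ℝ := 2 * entValue μ (xorPred c) - 1 with hε
  have hε0 : 0 ≤ ε := xor_bias_nonneg μ hμ0 hμ1 c
  have hv : entValue μ (xorPred c) = (1 + ε) / 2 := by rw [hε]; ring
  have hch := chernoff_of_moments
    (Ω := (Fin k → X) × (Fin k → Y) × (Fin k → Bool) × (Fin k → Bool))
    (fun ω => (∏ i, μ (ω.1 i) (ω.2.1 i)) * s.prob ω.1 ω.2.1 ω.2.2.1 ω.2.2.2)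
    (fun ω => mul_nonneg (Finset.prod_nonneg fun i _ => hμ0 _ _) (s.prob_nonneg _ _ _ _))
    (fun i ω => xorPred c (ω.1 i) (ω.2.1 i) (ω.2.2.1 i) (ω.2.2.2 i)) ε hε0
    (fun S => by
      have h := xor_moment_bound μ hμ0 hμ1 c s S
      simpa only [Fintype.sum_prod_type] using h)
    δ hδ
  unfold EntStrategy.probWinsAtLeast
  rw [hv]
  simpa only [Fintype.sum_prod_type] using hch

end Vale.Agent.H94
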