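import Mathlib
import Vale.Agent.H94.Defs
import Vale.Agent.H94.Chernoff2
import Vale.Agent.H94.GramBound
import Vale.Agent.H94.Duality
import Vale.Agent.H94.Tsirelson
import Vale.Agent.H94.Strategy
import Vale.Agent.H94.XorMain

/-!
# The threshold theorem for entangled games whose acceptance depends on the parity of the answers
-/

namespace Vale.Agent.H94

open Finset Matrix

variable {X Y : Type} [Fintype X] [Fintype Y]

/-- The indicator of a Boolean as a real number. -/
def bf (b : Bool) : ℝ := if b = true then 1 else 0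

lemma bf_nonneg (b : Bool) : 0 ≤ bf b := by
  cases b <;> simp [bf]

lemma parity_local_sum (g : Bool → Bool) (m t : ℝ) :
    ∑ a : Bool, ∑ b : Bool,
        (if g (xor a b) = true then m * ((1 + sgnB a * sgnB b * t) / 4) else 0)
      = m * (bf (g false) + bf (g true)) / 2 + m * (bf (g false) - bf (g true)) * t / 2 := by
  rcases h0 : g false with _ | _ <;> rcases h1 : g true with _ | _ <;>
    simp [sgnB, bf, h0, h1] <;> ring

lemma parity_pointwise (g : Bool → Bool) (l : ℝ) (a b : Bool) :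
    1 + l * (if g (xor a b) = true then (1 : ℝ) else 0)
      = (l * (bf (g false) - bf (g true)) / 2) * (sgnB a * sgnB b)
        + (1 + l * (bf (g false) + bf (g true)) / 2) := by
  rcases h0 : g false with _ | _ <;> rcases h1 : g true with _ | _ <;>
    cases a <;> cases b <;> simp [sgnB, bf, h0, h1] <;> ring

lemma prod_add_ite {k : ℕ} (F G : Fin k → ℝ) :
    ∏ i, (F i + G i) = ∑ T ∈ (univ : Finset (Fin k)).powerset,
      ∏ i, (if i ∈ T then F i else G i) := by
  classical
  rw [Finset.prod_add]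
  refine Finset.sum_congr rfl fun T hT => ?_
  rw [← Finset.prod_sdiff (Finset.subset_univ T), mul_comm]
  congr 1
  · exact Finset.prod_congr rfl fun i hi => by rw [if_neg (Finset.mem_sdiff.mp hi).2]
  · exact Finset.prod_congr rfl fun i hi => by rw [if_pos hi]

lemma sum4_comm_inner {A B C D E : Type} [Fintype A] [Fintype B] [Fintype C] [Fintype D]
    (S : Finset E) (F : A → B → C → D → E → ℝ) :
    ∑ a, ∑ b, ∑ c, ∑ d, ∑ e ∈ S, F a b c d e = ∑ e ∈ S, ∑ a, ∑ b, ∑ c, ∑ d, F a b c d e := by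
  calc ∑ a, ∑ b, ∑ c, ∑ d, ∑ e ∈ S, F a b c d e
      = ∑ a, ∑ b, ∑ c, ∑ e ∈ S, ∑ d, F a b c d e := by
        refine Finset.sum_congr rfl fun a _ => Finset.sum_congr rfl fun b _ =>
          Finset.sum_congr rfl fun c _ => Finset.sum_comm
    _ = ∑ a, ∑ b, ∑ e ∈ S, ∑ c, ∑ d, F a b c d e := by
        refine Finset.sum_congr rfl fun a _ => Finset.sum_congr rfl fun b _ => Finset.sum_comm
    _ = ∑ a, ∑ e ∈ S, ∑ b, ∑ c, ∑ d, F a b c d e := by
        refine Finset.sum_congr rfl fun a _ => Finset.sum_comm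
    _ = ∑ e ∈ S, ∑ a, ∑ b, ∑ c, ∑ d, F a b c d e := Finset.sum_comm

section value
variable {A B : Type} [Fintype A] [Fintype B]

lemma EntStrategy.winProb_nonneg (μ : X → Y → ℝ) (hμ0 : ∀ x y, 0 ≤ μ x y)
    (V : X → Y → A → B → Bool) (s : EntStrategy X Y A B) : 0 ≤ s.winProb μ V := by
  unfold EntStrategy.winProb
  refine Finset.sum_nonneg fun x _ => Finset.sum_nonneg fun y _ => Finset.sum_nonneg fun a _ =>
    Finset.sum_nonneg fun b _ => ?_
  split_ifs
  · exact mul_nonneg (hμ0 x y) (s.prob_nonneg x y a b)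
  · exact le_rfl

lemma entValue_nonneg (μ : X → Y → ℝ) (hμ0 : ∀ x y, 0 ≤ μ x y) (hμ1 : ∑ x, ∑ y, μ x y = 1)
    (V : X → Y → A → B → Bool) (s : EntStrategy X Y A B) : 0 ≤ entValue μ V :=
  (s.winProb_nonneg μ hμ0 V).trans (winProb_le_entValue μ hμ0 hμ1 V s)

lemma entValue_le_one (μ : X → Y → ℝ) (hμ0 : ∀ x y, 0 ≤ μ x y) (hμ1 : ∑ x, ∑ y, μ x y = 1)
    (V : X → Y → A → B → Bool) (s : EntStrategy X Y A B) : entValue μ V ≤ 1 := by
  have : Nonempty (EntStrategy X Y A B) := ⟨s⟩
  exact ciSup_le fun t => t.winProb_le_one μ hμ0 hμ1 V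

end value

/-- The vector program of a parity game is bounded in terms of its entangled value. -/
lemma parity_vec_le (μ : X → Y → ℝ) (hμ0 : ∀ x y, 0 ≤ μ x y) (hμ1 : ∑ x, ∑ y, μ x y = 1)
    (f : X → Y → Bool → Bool) (n : ℕ) (u : X → Fin n → ℝ) (v : Y → Fin n → ℝ)
    (hu : ∀ x, u x ⬝ᵥ u x ≤ 1) (hv : ∀ y, v y ⬝ᵥ v y ≤ 1) :
    ∑ x, ∑ y, (μ x y * (bf (f x y false) - bf (f x y true))) * (u x ⬝ᵥ v y)
      ≤ 2 * entValue μ (fun x y a b => f x y (xor a b))
        - ∑ x, ∑ y, μ x y * (bf (f x y false) + bf (f x y true)) := by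
  obtain ⟨s, hs⟩ := tsirelson_strategy n u v hu hv
  have hle := winProb_le_entValue μ hμ0 hμ1 (fun x y a b => f x y (xor a b)) s
  have hwin : s.winProb μ (fun x y a b => f x y (xor a b))
      = (∑ x, ∑ y, μ x y * (bf (f x y false) + bf (f x y true))) / 2
        + (∑ x, ∑ y, (μ x y * (bf (f x y false) - bf (f x y true))) * (u x ⬝ᵥ v y)) / 2 := by
    unfold EntStrategy.winProb
    have h1 : ∀ x y, ∑ a, ∑ b,
          (if f x y (xor a b) = true then μ x y * s.prob x y a b else 0)
        = μ x y * (bf (f x y false) + bf (f x y true)) / 2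
          + μ x y * (bf (f x y false) - bf (f x y true)) * (u x ⬝ᵥ v y) / 2 := by
      intro x y
      simp only [hs]
      exact parity_local_sum (f x y) (μ x y) (u x ⬝ᵥ v y)
    simp only [h1, Finset.sum_add_distrib, ← Finset.sum_div]
  rw [hwin] at hle
  linarith

/-- Bound on one term of the expansion of the generating function of the number of wins. -/
lemma parity_term_bound (μ : X → Y → ℝ) (hμ0 : ∀ x y, 0 ≤ μ x y) (hμ1 : ∑ x, ∑ y, μ x y = 1)
    (f : X → Y → Bool → Bool) {k : ℕ}
    (s : EntStrategy (Fin k → X) (Fin k → Y) (Fin k → Bool) (Fin k → Bool))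
    (l : ℝ) (hl : 0 ≤ l) (T : Finset (Fin k)) :
    ∑ x : Fin k → X, ∑ y : Fin k → Y, ∑ a : Fin k → Bool, ∑ b : Fin k → Bool,
        ((∏ i, μ (x i) (y i)) * s.prob x y a b) *
          ∏ i, (if i ∈ T then
              (l * (bf (f (x i) (y i) false) - bf (f (x i) (y i) true)) / 2)
                * (sgnB (a i) * sgnB (b i))
            else (1 + l * (bf (f (x i) (y i) false) + bf (f (x i) (y i) true)) / 2))
      ≤ ∏ i : Fin k, (if i ∈ T then
          l * (2 * entValue μ (fun x y a b => f x y (xor a b))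
            - ∑ x, ∑ y, μ x y * (bf (f x y false) + bf (f x y true))) / 2
          else 1 + l * (∑ x, ∑ y, μ x y * (bf (f x y false) + bf (f x y true))) / 2) := by
  classical
  set φ : ℝ := ∑ x, ∑ y, μ x y * (bf (f x y false) + bf (f x y true)) with hφ
  set β : ℝ := 2 * entValue μ (fun x y a b => f x y (xor a b)) - φ with hβ
  have hφ0 : 0 ≤ φ := Finset.sum_nonneg fun x _ => Finset.sum_nonneg fun y _ =>
    mul_nonneg (hμ0 x y) (add_nonneg (bf_nonneg _) (bf_nonneg _))
  have hβ0 : 0 ≤ β := by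
    have h := parity_vec_le μ hμ0 hμ1 f 0 (fun _ => 0) (fun _ => 0) (fun x => by simp)
      (fun y => by simp)
    simp only [dotProduct, Finset.univ_eq_empty, Finset.sum_empty, mul_zero,
      Finset.sum_const_zero] at h
    exact h
  obtain ⟨α, γ, hα, hγ, hαγ⟩ := s.exists_vectors (fun a => ∏ i ∈ T, sgnB (a i))
    (fun b => ∏ i ∈ T, sgnB (b i)) (prod_sgnB_mul_self T) (prod_sgnB_mul_self T)
  set g₀ : X → Y → ℝ := fun x y => 1 + l * (bf (f x y false) + bf (f x y true)) / 2 with hg₀
  set g₁ : X → Y → ℝ := fun x y => l * (bf (f x y false) - bf (f x y true)) / 2 with hg₁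
  set Mf : Fin k → X → Y → ℝ := fun i x y => μ x y * (if i ∈ T then g₁ x y else g₀ x y)
    with hMf
  set ρ : Fin k → ℝ := fun i => if i ∈ T then l * β / 2 else 1 + l * φ / 2 with hρ
  have hg₀nn : ∀ x y, 0 ≤ g₀ x y := fun x y => by
    have := mul_nonneg hl (add_nonneg (bf_nonneg (f x y false)) (bf_nonneg (f x y true)))
    simp only [hg₀]
    linarith
  have hρ0 : ∀ i, 0 ≤ ρ i := by
    intro i
    simp only [hρ]
    split_ifs
    · have := mul_nonneg hl hβ0
      linarith
    · have := mul_nonneg hl hφ0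
      linarith
  have hcert : ∀ i, GramCert (Mf i) (ρ i) := by
    intro i
    by_cases hi : i ∈ T
    · have e1 : Mf i = fun x y => μ x y * g₁ x y := by
        funext x y
        simp only [hMf, if_pos hi]
      have e2 : ρ i = l * β / 2 := by simp only [hρ, if_pos hi]
      rw [e1, e2]
      refine gramCert_of_vec _ _ (fun n u v hu hv => ?_)
      have h := parity_vec_le μ hμ0 hμ1 f n u v hu hv
      have e3 : ∑ x, ∑ y, μ x y * g₁ x y * (u x ⬝ᵥ v y)
          = (l / 2) * ∑ x, ∑ y,
              (μ x y * (bf (f x y false) - bf (f x y true))) * (u x ⬝ᵥ v y) := by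
        rw [Finset.mul_sum]
        refine Finset.sum_congr rfl fun x _ => ?_
        rw [Finset.mul_sum]
        refine Finset.sum_congr rfl fun y _ => ?_
        simp only [hg₁]
        ring
      rw [e3]
      have hl2 : 0 ≤ l / 2 := by linarith
      calc (l / 2) * ∑ x, ∑ y,
              (μ x y * (bf (f x y false) - bf (f x y true))) * (u x ⬝ᵥ v y)
          ≤ (l / 2) * β := mul_le_mul_of_nonneg_left h hl2
        _ = l * β / 2 := by ring
    · have e1 : Mf i = fun x y => μ x y * g₀ x y := by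
        funext x y
        simp only [hMf, if_neg hi]
      have e2 : ρ i = 1 + l * φ / 2 := by simp only [hρ, if_neg hi]
      rw [e1, e2]
      refine gramCert_of_vec _ _ (fun n u v hu hv => ?_)
      calc ∑ x, ∑ y, μ x y * g₀ x y * (u x ⬝ᵥ v y)
          ≤ ∑ x, ∑ y, μ x y * g₀ x y * 1 := by
            refine Finset.sum_le_sum fun x _ => Finset.sum_le_sum fun y _ => ?_
            exact mul_le_mul_of_nonneg_left (dot_le_one_of_norm_le _ _ (hu x) (hv y))
              (mul_nonneg (hμ0 x y) (hg₀nn x y))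
        _ = 1 + l * φ / 2 := by
            have e4 : ∀ x y, μ x y * g₀ x y * 1
                = μ x y + (l / 2) * (μ x y * (bf (f x y false) + bf (f x y true))) := by
              intro x y
              simp only [hg₀]
              ring
            simp only [e4, Finset.sum_add_distrib, ← Finset.mul_sum, hμ1]
            ring
  have hbound := prod_cert_bound Mf ρ hcert α γ hα hγ
  rw [Finset.prod_pow] at hbound
  have hrewrite : ∑ x : Fin k → X, ∑ y : Fin k → Y, ∑ a : Fin k → Bool, ∑ b : Fin k → Bool,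
        ((∏ i, μ (x i) (y i)) * s.prob x y a b) *
          ∏ i, (if i ∈ T then g₁ (x i) (y i) * (sgnB (a i) * sgnB (b i)) else g₀ (x i) (y i))
      = ∑ x, ∑ y, (∏ i, Mf i (x i) (y i)) * (α x ⬝ᵥ γ y) := by
    refine Finset.sum_congr rfl fun x _ => Finset.sum_congr rfl fun y _ => ?_
    rw [← hαγ x y, Finset.mul_sum]
    refine Finset.sum_congr rfl fun a _ => ?_
    rw [Finset.mul_sum]
    refine Finset.sum_congr rfl fun b _ => ?_
    have e1 : ∏ i, (if i ∈ T then g₁ (x i) (y i) * (sgnB (a i) * sgnB (b i))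
          else g₀ (x i) (y i))
        = (∏ i, (if i ∈ T then g₁ (x i) (y i) else g₀ (x i) (y i)))
          * ((∏ i ∈ T, sgnB (a i)) * (∏ i ∈ T, sgnB (b i))) := by
      have e0 : ∀ i, (if i ∈ T then g₁ (x i) (y i) * (sgnB (a i) * sgnB (b i))
            else g₀ (x i) (y i))
          = (if i ∈ T then g₁ (x i) (y i) else g₀ (x i) (y i))
            * ((if i ∈ T then sgnB (a i) else 1) * (if i ∈ T then sgnB (b i) else 1)) := by
        intro i
        split_ifs <;> ring
      simp only [e0]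
      rw [Finset.prod_mul_distrib, Finset.prod_mul_distrib, Finset.prod_ite_mem,
        Finset.prod_ite_mem, Finset.univ_inter]
    have e2 : ∏ i, Mf i (x i) (y i)
        = (∏ i, μ (x i) (y i)) * ∏ i, (if i ∈ T then g₁ (x i) (y i) else g₀ (x i) (y i)) := by
      simp only [hMf]
      rw [Finset.prod_mul_distrib]
    rw [e1, e2]
    ring
  show ∑ x : Fin k → X, ∑ y : Fin k → Y, ∑ a : Fin k → Bool, ∑ b : Fin k → Bool,
        ((∏ i, μ (x i) (y i)) * s.prob x y a b) *
          ∏ i, (if i ∈ T then g₁ (x i) (y i) * (sgnB (a i) * sgnB (b i)) else g₀ (x i) (y i))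
      ≤ ∏ i, ρ i
  rw [hrewrite]
  have hprod0 : 0 ≤ ∏ i, ρ i := Finset.prod_nonneg fun i _ => hρ0 i
  exact le_trans (le_abs_self _) (abs_le_of_sq_le_sq hbound hprod0)

/-- Bernoulli-type bound on the generating function of the number of wins of a strategy for
the repeated parity game. -/
theorem parity_mgf_bound (μ : X → Y → ℝ) (hμ0 : ∀ x y, 0 ≤ μ x y)
    (hμ1 : ∑ x, ∑ y, μ x y = 1) (f : X → Y → Bool → Bool) {k : ℕ}
    (s : EntStrategy (Fin k → X) (Fin k → Y) (Fin k → Bool) (Fin k → Bool))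
    (l : ℝ) (hl : 0 ≤ l) :
    ∑ x : Fin k → X, ∑ y : Fin k → Y, ∑ a : Fin k → Bool, ∑ b : Fin k → Bool,
        ((∏ i, μ (x i) (y i)) * s.prob x y a b) *
          ∏ i, (1 + l * (if f (x i) (y i) (xor (a i) (b i)) = true then (1 : ℝ) else 0))
      ≤ (1 + l * entValue μ (fun x y a b => f x y (xor a b))) ^ k := by
  classical
  set φ : ℝ := ∑ x, ∑ y, μ x y * (bf (f x y false) + bf (f x y true)) with hφ
  set v : ℝ := entValue μ (fun x y a b => f x y (xor a b)) with hv
  have hexp : ∀ (x : Fin k → X) (y : Fin k → Y) (a b : Fin k → Bool),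
      ∏ i, (1 + l * (if f (x i) (y i) (xor (a i) (b i)) = true then (1 : ℝ) else 0))
        = ∑ T ∈ (univ : Finset (Fin k)).powerset,
            ∏ i, (if i ∈ T then
              (l * (bf (f (x i) (y i) false) - bf (f (x i) (y i) true)) / 2)
                * (sgnB (a i) * sgnB (b i))
            else (1 + l * (bf (f (x i) (y i) false) + bf (f (x i) (y i) true)) / 2)) := by
    intro x y a b
    rw [← prod_add_ite]
    exact Finset.prod_congr rfl fun i _ => parity_pointwise (f (x i) (y i)) l (a i) (b i)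
  simp only [hexp, Finset.mul_sum]
  rw [sum4_comm_inner]
  calc ∑ T ∈ (univ : Finset (Fin k)).powerset,
        ∑ x : Fin k → X, ∑ y : Fin k → Y, ∑ a : Fin k → Bool, ∑ b : Fin k → Bool,
        ((∏ i, μ (x i) (y i)) * s.prob x y a b) *
          ∏ i, (if i ∈ T then
              (l * (bf (f (x i) (y i) false) - bf (f (x i) (y i) true)) / 2)
                * (sgnB (a i) * sgnB (b i))
            else (1 + l * (bf (f (x i) (y i) false) + bf (f (x i) (y i) true)) / 2))
      ≤ ∑ T ∈ (univ : Finset (Fin k)).powerset,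
          ∏ i : Fin k, (if i ∈ T then l * (2 * v - φ) / 2 else 1 + l * φ / 2) :=
        Finset.sum_le_sum fun T _ => parity_term_bound μ hμ0 hμ1 f s l hl T
    _ = ∏ i : Fin k, (l * (2 * v - φ) / 2 + (1 + l * φ / 2)) :=
        (prod_add_ite (fun _ => l * (2 * v - φ) / 2) (fun _ => 1 + l * φ / 2)).symm
    _ = (1 + l * v) ^ k := by
        rw [Finset.prod_const, Finset.card_univ, Fintype.card_fin]
        congr 1
        ring

/-- **Threshold theorem for entangled games whose acceptance depends only on the parity of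
the two answer bits.** -/
theorem parity_threshold (μ : X → Y → ℝ) (hμ0 : ∀ x y, 0 ≤ μ x y)
    (hμ1 : ∑ x, ∑ y, μ x y = 1) (f : X → Y → Bool → Bool) (δ : ℝ) (hδ : 0 < δ) (k : ℕ)
    (s : EntStrategy (Fin k → X) (Fin k → Y) (Fin k → Bool) (Fin k → Bool)) :
    s.probWinsAtLeast μ (fun x y a b => f x y (xor a b))
        ((entValue μ (fun x y a b => f x y (xor a b)) + δ) * k)
      ≤ Real.exp (-(2 * δ ^ 2 * k)) := by
  classical
  obtain ⟨s₀, -⟩ := tsirelson_strategy (X := X) (Y := Y) 0 (fun _ => 0) (fun _ => 0)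
    (fun x => by simp) (fun y => by simp)
  have hv0 := entValue_nonneg μ hμ0 hμ1 (fun x y a b => f x y (xor a b)) s₀
  have hv1 := entValue_le_one μ hμ0 hμ1 (fun x y a b => f x y (xor a b)) s₀
  have hch := chernoff_of_win_mgf
    (Ω := (Fin k → X) × (Fin k → Y) × (Fin k → Bool) × (Fin k → Bool))
    (fun ω => (∏ i, μ (ω.1 i) (ω.2.1 i)) * s.prob ω.1 ω.2.1 ω.2.2.1 ω.2.2.2)
    (fun ω => mul_nonneg (Finset.prod_nonneg fun i _ => hμ0 _ _) (s.prob_nonneg _ _ _ _))
    (fun i ω => f (ω.1 i) (ω.2.1 i) (xor (ω.2.2.1 i) (ω.2.2.2 i)))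
    (entValue μ (fun x y a b => f x y (xor a b))) hv0 hv1
    (fun l hl => by
      have h := parity_mgf_bound μ hμ0 hμ1 f s l hl
      simpa only [Fintype.sum_prod_type] using h)
    δ hδ
  unfold EntStrategy.probWinsAtLeast
  simpa only [Fintype.sum_prod_type] using hch

end Vale.Agent.H94
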