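import Mathlib

/-!
# Product matrices indexed by functions (iterated Kronecker products) and product-sum lemmas
-/

namespace Vale.Agent.H94

open Matrix Finset
open scoped MatrixOrder ComplexOrder

/-- Sum over two families of functions of a product of local terms. -/
lemma sum_sum_prod_pi {T α β R : Type} [Fintype T] [DecidableEq T] [Fintype α] [Fintype β]
    [CommSemiring R] (g : T → α → β → R) :
    ∑ u : T → α, ∑ w : T → β, ∏ t, g t (u t) (w t) = ∏ t, ∑ i, ∑ j, g t i j := by
  rw [Fintype.prod_sum]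
  refine Finset.sum_congr rfl fun u _ => ?_
  rw [Fintype.prod_sum]

/-- Sum over four families of functions of a product of local terms. -/
lemma sum4_prod_pi {T α β γ δ R : Type} [Fintype T] [DecidableEq T] [Fintype α] [Fintype β]
    [Fintype γ] [Fintype δ] [CommSemiring R] (g : T → α → β → γ → δ → R) :
    ∑ u : T → α, ∑ w : T → β, ∑ u' : T → γ, ∑ w' : T → δ, ∏ t, g t (u t) (w t) (u' t) (w' t)
      = ∏ t, ∑ i, ∑ j, ∑ i', ∑ j', g t i j i' j' := by
  have h1 : ∀ (u : T → α) (w : T → β),
      ∑ u' : T → γ, ∑ w' : T → δ, ∏ t, g t (u t) (w t) (u' t) (w' t)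
        = ∏ t, ∑ i', ∑ j', g t (u t) (w t) i' j' :=
    fun u w => sum_sum_prod_pi (fun t i' j' => g t (u t) (w t) i' j')
  simp only [h1]
  exact sum_sum_prod_pi (fun t i j => ∑ i', ∑ j', g t i j i' j')

/-- The product matrix: entry `(u, u')` is the product over `t` of the entries
`F t (u t) (u' t)`. -/
def piMat {T ι : Type} [Fintype T] (F : T → Matrix ι ι ℂ) : Matrix (T → ι) (T → ι) ℂ :=
  fun u u' => ∏ t, F t (u t) (u' t)

lemma piMat_mul {T ι : Type} [Fintype T] [DecidableEq T] [Fintype ι]
    (F G : T → Matrix ι ι ℂ) : piMat F * piMat G = piMat (fun t => F t * G t) := by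
  ext u u'
  simp only [Matrix.mul_apply, piMat]
  rw [Fintype.prod_sum]
  refine Finset.sum_congr rfl fun w _ => ?_
  rw [Finset.prod_mul_distrib]

lemma piMat_conjTranspose {T ι : Type} [Fintype T] (F : T → Matrix ι ι ℂ) :
    (piMat F)ᴴ = piMat (fun t => (F t)ᴴ) := by
  ext u u'
  simp only [Matrix.conjTranspose_apply, piMat, star_prod]

lemma piMat_one {T ι : Type} [Fintype T] [DecidableEq ι] :
    piMat (fun _ : T => (1 : Matrix ι ι ℂ)) = 1 := by
  classical
  ext u u'
  simp only [piMat, Matrix.one_apply]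
  by_cases h : u = u'
  · subst h
    simp
  · rw [if_neg h]
    obtain ⟨t, ht⟩ := Function.ne_iff.mp h
    exact Finset.prod_eq_zero (Finset.mem_univ t) (by simp [ht])

lemma piMat_posSemidef {T ι : Type} [Fintype T] [DecidableEq T] [Fintype ι] [DecidableEq ι]
    (F : T → Matrix ι ι ℂ) (hF : ∀ t, (F t).PosSemidef) :
    (piMat F).PosSemidef := by
  have h : ∀ t, ∃ B : Matrix ι ι ℂ, F t = Bᴴ * B := by
    intro t
    obtain ⟨a, ha⟩ := CStarAlgebra.nonneg_iff_eq_star_mul_self.mp (hF t).nonneg
    exact ⟨a, by rw [ha, Matrix.star_eq_conjTranspose]⟩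
  choose B hB using h
  have e : piMat F = (piMat B)ᴴ * piMat B := by
    rw [piMat_conjTranspose, piMat_mul]
    congr 1
    funext t
    exact hB t
  rw [e]
  exact Matrix.posSemidef_conjTranspose_mul_self _

lemma piMat_sum {T ι A : Type} [Fintype T] [DecidableEq T] [Fintype A]
    (M : T → A → Matrix ι ι ℂ) :
    ∑ a : T → A, piMat (fun t => M t (a t)) = piMat (fun t => ∑ a, M t a) := by
  ext u u'
  simp only [Matrix.sum_apply, piMat]
  rw [Fintype.prod_sum]

end Vale.Agent.H94
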