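import Vale.Agent.H94.Strategy
import Vale.Agent.H94.PiMat

/-!
# Product (independent) strategies for repeated games

From a strategy for one copy of a game we build the product strategy for `k` copies: the
state is the `k`-fold tensor power, the measurements are the tensor products of the single-copy
measurements.  Its answer probabilities are the products of the single-copy probabilities.
-/

namespace Vale.Agent.H94

open Matrix Finset
open scoped Kronecker ComplexOrder

/-- Expansion of the quadratic form of a Kronecker product. -/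
lemma amp_expand {ι κ : Type} [Fintype ι] [Fintype κ] (ψ : ι × κ → ℂ)
    (M : Matrix ι ι ℂ) (N : Matrix κ κ ℂ) :
    star ψ ⬝ᵥ (M ⊗ₖ N) *ᵥ ψ
      = ∑ i, ∑ j, ∑ i', ∑ j', star (ψ (i, j)) * (M i i' * N j j' * ψ (i', j')) := by
  simp only [dotProduct, mulVec, Pi.star_apply, kroneckerMap_apply, Fintype.sum_prod_type,
    Finset.mul_sum]

/-- The quadratic form defining an answer probability is a real number. -/
lemma EntStrategy.amp_eq_ofReal {X Y A B : Type} [Fintype A] [Fintype B]
    (s : EntStrategy X Y A B) (x : X) (y : Y) (a : A) (b : B) :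
    star s.ψ ⬝ᵥ (s.M x a ⊗ₖ s.N y b) *ᵥ s.ψ = ((s.prob x y a b : ℝ) : ℂ) := by
  have h := ((s.M_pos x a).kronecker (s.N_pos y b)).dotProduct_mulVec_nonneg s.ψ
  have h2 := (Complex.nonneg_iff.mp h).2
  apply Complex.ext
  · simp [EntStrategy.prob]
  · simp only [Complex.ofReal_im]
    exact h2.symm

/-- A state and measurements indexed by arbitrary finite types give a strategy (with the
same answer probabilities) in the `Fin`-indexed format. -/
theorem exists_strategy_of_general {X Y A B ι κ : Type} [Fintype A] [Fintype B]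
    [Fintype ι] [DecidableEq ι] [Fintype κ] [DecidableEq κ]
    (ψ : ι × κ → ℂ) (M : X → A → Matrix ι ι ℂ) (N : Y → B → Matrix κ κ ℂ)
    (hψ : star ψ ⬝ᵥ ψ = 1) (hM : ∀ x a, (M x a).PosSemidef) (hMs : ∀ x, ∑ a, M x a = 1)
    (hN : ∀ y b, (N y b).PosSemidef) (hNs : ∀ y, ∑ b, N y b = 1) :
    ∃ s : EntStrategy X Y A B, ∀ x y a b,
      s.prob x y a b = (star ψ ⬝ᵥ (M x a ⊗ₖ N y b) *ᵥ ψ).re := by
  classical
  set eι := Fintype.equivFin ι with heι
  set eκ := Fintype.equivFin κ with heκ
  set E : Fin (Fintype.card ι) × Fin (Fintype.card κ) ≃ ι × κ :=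
    Equiv.prodCongr eι.symm eκ.symm with hE
  have hsumM : ∀ x, ∑ a, (M x a).submatrix eι.symm eι.symm = 1 := by
    intro x
    have : ∑ a, (M x a).submatrix eι.symm eι.symm = (∑ a, M x a).submatrix eι.symm eι.symm := by
      ext i j
      simp [Matrix.sum_apply]
    rw [this, hMs, Matrix.submatrix_one_equiv]
  have hsumN : ∀ y, ∑ b, (N y b).submatrix eκ.symm eκ.symm = 1 := by
    intro y
    have : ∑ b, (N y b).submatrix eκ.symm eκ.symm = (∑ b, N y b).submatrix eκ.symm eκ.symm := by
      ext i j
      simp [Matrix.sum_apply]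
    rw [this, hNs, Matrix.submatrix_one_equiv]
  have hunit : star (fun p : Fin (Fintype.card ι) × Fin (Fintype.card κ) => ψ (E p))
      ⬝ᵥ (fun p => ψ (E p)) = 1 := by
    rw [← hψ]
    simp only [dotProduct, Pi.star_apply]
    exact Fintype.sum_equiv E _ _ (fun p => rfl)
  refine ⟨{ dA := Fintype.card ι, dB := Fintype.card κ,
            ψ := fun p => ψ (E p),
            M := fun x a => (M x a).submatrix eι.symm eι.symm,
            N := fun y b => (N y b).submatrix eκ.symm eκ.symm,
            ψ_unit := hunit,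
            M_pos := fun x a => (hM x a).submatrix _,
            M_sum := hsumM,
            N_pos := fun y b => (hN y b).submatrix _,
            N_sum := hsumN }, ?_⟩
  intro x y a b
  unfold EntStrategy.prob
  congr 1
  simp only [dotProduct, mulVec, Pi.star_apply, kroneckerMap_apply, submatrix_apply]
  refine Fintype.sum_equiv E _ _ (fun p => ?_)
  congr 1
  exact Fintype.sum_equiv E _ _ (fun q => rfl)

/-- **Product strategies.** For every strategy `s₀` for one copy and every `k` there is a
strategy for `k` copies whose answer probabilities are the products of those of `s₀`. -/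
theorem exists_power_strategy {X Y A B : Type} [Fintype A] [Fintype B]
    (s₀ : EntStrategy X Y A B) (k : ℕ) :
    ∃ s : EntStrategy (Fin k → X) (Fin k → Y) (Fin k → A) (Fin k → B), ∀ x y a b,
      s.prob x y a b = ∏ t, s₀.prob (x t) (y t) (a t) (b t) := by
  classical
  set ψ : (Fin k → Fin s₀.dA) × (Fin k → Fin s₀.dB) → ℂ :=
    fun p => ∏ t, s₀.ψ (p.1 t, p.2 t) with hψdef
  set M : (Fin k → X) → (Fin k → A) → Matrix (Fin k → Fin s₀.dA) (Fin k → Fin s₀.dA) ℂ :=
    fun x a => piMat (fun t => s₀.M (x t) (a t)) with hMdef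
  set N : (Fin k → Y) → (Fin k → B) → Matrix (Fin k → Fin s₀.dB) (Fin k → Fin s₀.dB) ℂ :=
    fun y b => piMat (fun t => s₀.N (y t) (b t)) with hNdef
  have h0 : ∑ i, ∑ j, star (s₀.ψ (i, j)) * s₀.ψ (i, j) = 1 := by
    have := s₀.ψ_unit
    simpa only [dotProduct, Pi.star_apply, Fintype.sum_prod_type] using this
  have hψ : star ψ ⬝ᵥ ψ = 1 := by
    simp only [dotProduct, Pi.star_apply, Fintype.sum_prod_type, hψdef, star_prod,
      ← Finset.prod_mul_distrib]
    rw [sum_sum_prod_pi (fun (_ : Fin k) i j => star (s₀.ψ (i, j)) * s₀.ψ (i, j))]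
    simp only [h0, Finset.prod_const_one]
  have hMs : ∀ x, ∑ a, M x a = 1 := by
    intro x
    simp only [hMdef]
    rw [piMat_sum (fun t a => s₀.M (x t) a)]
    simp only [s₀.M_sum]
    exact piMat_one
  have hNs : ∀ y, ∑ b, N y b = 1 := by
    intro y
    simp only [hNdef]
    rw [piMat_sum (fun t b => s₀.N (y t) b)]
    simp only [s₀.N_sum]
    exact piMat_one
  obtain ⟨s, hs⟩ := exists_strategy_of_general (X := Fin k → X) (Y := Fin k → Y) ψ M N hψ
    (fun x a => piMat_posSemidef _ (fun t => s₀.M_pos (x t) (a t))) hMs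
    (fun y b => piMat_posSemidef _ (fun t => s₀.N_pos (y t) (b t))) hNs
  refine ⟨s, fun x y a b => ?_⟩
  rw [hs]
  have key : star ψ ⬝ᵥ (M x a ⊗ₖ N y b) *ᵥ ψ
      = ∏ t, ((s₀.prob (x t) (y t) (a t) (b t) : ℝ) : ℂ) := by
    rw [amp_expand]
    simp only [hψdef, hMdef, hNdef, piMat, star_prod, ← Finset.prod_mul_distrib]
    rw [sum4_prod_pi (fun (t : Fin k) i j i' j' =>
      star (s₀.ψ (i, j)) * (s₀.M (x t) (a t) i i' * s₀.N (y t) (b t) j j' * s₀.ψ (i', j')))]
    refine Finset.prod_congr rfl fun t _ => ?_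
    rw [← amp_expand, EntStrategy.amp_eq_ofReal]
  rw [key, ← Complex.ofReal_prod, Complex.ofReal_re]

end Vale.Agent.H94
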