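import Vale.Agent.H94.Power

/-!
# The number of wins of a product strategy dominates a binomial term
-/

namespace Vale.Agent.H94

open Matrix Finset

/-- If the answer probabilities of a strategy `s` for `k` copies are the products of those of a
single-copy strategy `s₀` with winning probability `p`, then for every `j ≤ k` the probability
of winning at least `t ≤ j` coordinates is at least the binomial term
`C(k, j) p^j (1 - p)^(k - j)` (the probability of exactly `j` wins). -/
theorem power_wins_ge {X Y A B : Type} [Fintype X] [Fintype Y] [Fintype A] [Fintype B]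
    (μ : X → Y → ℝ) (hμ0 : ∀ x y, 0 ≤ μ x y) (hμ1 : ∑ x, ∑ y, μ x y = 1)
    (V : X → Y → A → B → Bool) (s₀ : EntStrategy X Y A B) {k : ℕ} (j : ℕ)
    (s : EntStrategy (Fin k → X) (Fin k → Y) (Fin k → A) (Fin k → B))
    (hs : ∀ x y a b, s.prob x y a b = ∏ t, s₀.prob (x t) (y t) (a t) (b t))
    (t : ℝ) (ht : t ≤ j) :
    (k.choose j : ℝ) * (s₀.winProb μ V) ^ j * (1 - s₀.winProb μ V) ^ (k - j)
      ≤ s.probWinsAtLeast μ V t := by
  classical
  set p : ℝ := s₀.winProb μ V with hp
  set q : X → Y → A → B → ℝ := fun x y a b => μ x y * s₀.prob x y a b with hq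
  have hq0 : ∀ x y a b, 0 ≤ q x y a b := fun x y a b =>
    mul_nonneg (hμ0 x y) (s₀.prob_nonneg x y a b)
  set g : Finset (Fin k) → Fin k → X → Y → A → B → ℝ :=
    fun T i x y a b => if (V x y a b = true ↔ i ∈ T) then q x y a b else 0 with hg
  -- local sums
  have hqsum : ∑ x, ∑ y, ∑ a, ∑ b, q x y a b = 1 := by
    simp only [hq, ← Finset.mul_sum, s₀.sum_prob, mul_one]
    exact hμ1
  have hwin : ∑ x, ∑ y, ∑ a, ∑ b, (if V x y a b = true then q x y a b else 0) = p := rfl
  have hlose : ∑ x, ∑ y, ∑ a, ∑ b, (if V x y a b = true then 0 else q x y a b) = 1 - p := by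
    have hsplit : ∀ x y a b, (if V x y a b = true then 0 else q x y a b)
        = q x y a b - (if V x y a b = true then q x y a b else 0) := by
      intro x y a b
      split_ifs <;> ring
    simp only [hsplit, Finset.sum_sub_distrib, hqsum]
    rw [hwin]
  have hloc : ∀ (T : Finset (Fin k)) (i : Fin k),
      ∑ x, ∑ y, ∑ a, ∑ b, g T i x y a b = if i ∈ T then p else 1 - p := by
    intro T i
    by_cases hi : i ∈ T
    · simp only [hg, hi, iff_true, if_true]
      exact hwin
    · simp only [hg, hi, iff_false, if_false]
      rw [← hlose]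
      refine Finset.sum_congr rfl fun x _ => Finset.sum_congr rfl fun y _ =>
        Finset.sum_congr rfl fun a _ => Finset.sum_congr rfl fun b _ => ?_
      by_cases hV : V x y a b = true <;> simp [hV]
  -- pointwise bound
  have hpt : ∀ (x : Fin k → X) (y : Fin k → Y) (a : Fin k → A) (b : Fin k → B),
      ∑ T ∈ (univ : Finset (Fin k)).powersetCard j, ∏ i, g T i (x i) (y i) (a i) (b i)
        ≤ if t ≤ ((univ.filter fun i => V (x i) (y i) (a i) (b i) = true).card : ℝ)
          then (∏ i, μ (x i) (y i)) * s.prob x y a b else 0 := by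
    intro x y a b
    set Wset : Finset (Fin k) := univ.filter fun i => V (x i) (y i) (a i) (b i) = true with hW
    set Q : ℝ := (∏ i, μ (x i) (y i)) * s.prob x y a b with hQ
    have hQ0 : 0 ≤ Q := mul_nonneg (Finset.prod_nonneg fun i _ => hμ0 _ _) (s.prob_nonneg _ _ _ _)
    have hQe : Q = ∏ i, q (x i) (y i) (a i) (b i) := by
      rw [hQ, hs, ← Finset.prod_mul_distrib]
    have hprod : ∀ T : Finset (Fin k),
        ∏ i, g T i (x i) (y i) (a i) (b i) = if T = Wset then Q else 0 := by
      intro T
      by_cases hT : T = Wset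
      · rw [if_pos hT, hQe]
        refine Finset.prod_congr rfl fun i _ => ?_
        have : (V (x i) (y i) (a i) (b i) = true ↔ i ∈ T) := by
          rw [hT, hW]
          simp
        simp only [hg, this, if_true]
      · rw [if_neg hT]
        have : ∃ i, ¬ (V (x i) (y i) (a i) (b i) = true ↔ i ∈ T) := by
          by_contra hcon
          simp only [not_exists, not_not] at hcon
          apply hT
          ext i
          rw [hW]
          simp only [Finset.mem_filter, Finset.mem_univ, true_and]
          exact (hcon i).symm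
        obtain ⟨i, hi⟩ := this
        refine Finset.prod_eq_zero (Finset.mem_univ i) ?_
        simp only [hg, hi, if_false]
    simp only [hprod]
    rw [Finset.sum_ite_eq']
    by_cases hc : Wset ∈ (univ : Finset (Fin k)).powersetCard j
    · rw [if_pos hc]
      have hcard : Wset.card = j := (Finset.mem_powersetCard.mp hc).2
      rw [if_pos (by rw [hcard]; exact ht)]
    · rw [if_neg hc]
      split_ifs
      · exact hQ0
      · exact le_rfl
  -- sum up
  have hsum : ∑ T ∈ (univ : Finset (Fin k)).powersetCard j,
      ∑ x : Fin k → X, ∑ y : Fin k → Y, ∑ a : Fin k → A, ∑ b : Fin k → B,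
        ∏ i, g T i (x i) (y i) (a i) (b i)
      = (k.choose j : ℝ) * p ^ j * (1 - p) ^ (k - j) := by
    have h1 : ∀ T ∈ (univ : Finset (Fin k)).powersetCard j,
        ∑ x : Fin k → X, ∑ y : Fin k → Y, ∑ a : Fin k → A, ∑ b : Fin k → B,
          ∏ i, g T i (x i) (y i) (a i) (b i) = p ^ j * (1 - p) ^ (k - j) := by
      intro T hT
      have hcard : T.card = j := (Finset.mem_powersetCard.mp hT).2
      rw [sum4_prod_pi (fun i x y a b => g T i x y a b)]
      simp only [hloc]
      rw [Finset.prod_ite, Finset.prod_const, Finset.prod_const]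
      have e1 : (univ.filter fun i => i ∈ T) = T := by
        ext i
        simp
      have e2 : (univ.filter fun i => i ∉ T).card = k - j := by
        have : (univ.filter fun i => i ∉ T) = univ \ T := by
          ext i
          simp
        rw [this, Finset.card_sdiff_of_subset (Finset.subset_univ T), Finset.card_univ,
          Fintype.card_fin, hcard]
      rw [e1, e2, hcard]
    rw [Finset.sum_congr rfl h1, Finset.sum_const, Finset.card_powersetCard, Finset.card_univ,
      Fintype.card_fin, nsmul_eq_mul]
    ring
  rw [← hsum]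
  unfold EntStrategy.probWinsAtLeast
  rw [Finset.sum_comm' (s := (univ : Finset (Fin k)).powersetCard j) (t := fun _ => univ)
    (s' := fun _ => (univ : Finset (Fin k)).powersetCard j) (t' := univ) (by simp)]
  refine Finset.sum_le_sum fun x _ => ?_
  rw [Finset.sum_comm]
  refine Finset.sum_le_sum fun y _ => ?_
  rw [Finset.sum_comm]
  refine Finset.sum_le_sum fun a _ => ?_
  rw [Finset.sum_comm]
  exact Finset.sum_le_sum fun b _ => hpt x y a b

end Vale.Agent.H94
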